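import Vale.Agent.P315.C.Alg

/-!
P315 (helper804), strategy without exceptions: the query algorithm `C/Alg.lean` is run on the
modified hidden costs `known P vis hid T` (an unread cell has its visible cost), where `T` is the
set of the cells read so far. The read set of a region is produced as an ordered list; the first
cell of this list outside `T` belongs to the true read set (`find_mem`), and if there is no such
cell then the read set and the certified costs are the true ones (`rd_eq_of_subset`,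
`cR_eq_of_subset`). The indices are natural: `n = b + H + 1`.
-/

set_option autoImplicit false

namespace Vale.Agent.P315.H804

open Vale.Agent.P315.C

/-! ### First occurrences -/

/-- Remove repetitions, keep the first occurrences. -/
def ded (l : List (ℕ × ℕ)) : List (ℕ × ℕ) :=
  l.foldl (fun acc x => if x ∈ acc then acc else acc ++ [x]) []

theorem find_foldl (p : ℕ × ℕ → Bool) (l acc : List (ℕ × ℕ)) :
    (l.foldl (fun acc x => if x ∈ acc then acc else acc ++ [x]) acc).find? p =
      (acc ++ l).find? p := by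
  induction l generalizing acc with
  | nil => simp
  | cons x l ih =>
    rw [List.foldl_cons]
    by_cases hx : x ∈ acc
    · rw [if_pos hx, ih]
      simp only [List.find?_append]
      cases hf : acc.find? p with
      | some y => simp
      | none =>
        have : ¬ p x = true := by
          have := List.find?_eq_none.1 hf x hx
          simpa using this
        simp [this]
    · rw [if_neg hx, ih, List.append_assoc]
      rfl

theorem find_ded (p : ℕ × ℕ → Bool) (l : List (ℕ × ℕ)) : (ded l).find? p = l.find? p := by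
  unfold ded
  rw [find_foldl]
  rfl

theorem mem_foldl (l acc : List (ℕ × ℕ)) (c : ℕ × ℕ) :
    c ∈ l.foldl (fun acc x => if x ∈ acc then acc else acc ++ [x]) acc ↔ c ∈ acc ∨ c ∈ l := by
  induction l generalizing acc with
  | nil => simp
  | cons x l ih =>
    rw [List.foldl_cons, ih]
    by_cases hx : x ∈ acc
    · rw [if_pos hx]
      constructor
      · rintro (h | h)
        · exact Or.inl h
        · exact Or.inr (List.mem_cons_of_mem _ h)
      · rintro (h | h)
        · exact Or.inl h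
        · rcases List.mem_cons.1 h with rfl | h
          · exact Or.inl hx
          · exact Or.inr h
    · rw [if_neg hx]
      simp only [List.mem_append, List.mem_cons]
      tauto

theorem mem_ded {l : List (ℕ × ℕ)} {c : ℕ × ℕ} : c ∈ ded l ↔ c ∈ l := by
  unfold ded
  rw [mem_foldl]
  simp

theorem nodup_foldl (l acc : List (ℕ × ℕ)) (h : acc.Nodup) :
    (l.foldl (fun acc x => if x ∈ acc then acc else acc ++ [x]) acc).Nodup := by
  induction l generalizing acc with
  | nil => simpa
  | cons x l ih =>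
    rw [List.foldl_cons]
    by_cases hx : x ∈ acc
    · rw [if_pos hx]; exact ih _ h
    · rw [if_neg hx]
      refine ih _ ?_
      rw [List.nodup_append]
      refine ⟨h, List.nodup_singleton _, ?_⟩
      intro a ha b hb
      rw [List.mem_singleton] at hb
      subst hb
      rintro rfl
      exact hx ha

theorem nodup_ded (l : List (ℕ × ℕ)) : (ded l).Nodup := nodup_foldl l [] List.nodup_nil

/-! ### Hypotheses -/

/-- The lane of round `κ` depends only on the costs of the descendants in the rounds `≤ κ`. -/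
def Loc (P : Par) (mc : Mach) : Prop :=
  ∀ (s q κ j a : ℕ) (D D' : ℕ → ℕ → ℕ → ℕ → ℕ → ℕ) (coin : ℕ → ℕ),
    (∀ κ' ≤ κ, ∀ m < P.M ^ 2 ^ s, ∀ x ∈ P.desc j (2 ^ s) a, ∀ u v,
      D κ' m x u v = D' κ' m x u v) →
    ∀ m < P.M ^ 2 ^ s, mc.lane s q κ j a D coin m = mc.lane s q κ j a D' coin m

/-- A descendant is reached through a child with at most its own penalty. -/
def PenOK (P : Par) : Prop :=
  ∀ j e a x, x ∈ P.desc j (e + 1) a → ∃ a' ∈ P.kids j a, x ∈ P.desc (j - 1) e a' ∧
    P.pen j 1 a a' + P.pen (j - 1) e a' x ≤ P.pen j (e + 1) a x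

section
variable {P : Par} {mc : Mach} {ω : Rnd} {vis h : Leaf}

/-! ### Nestedness -/

theorem mem_rd {j i a : ℕ} {b : ℤ} {c : ℕ × ℕ} :
    c ∈ rd P mc ω vis h (j + 1) i a b ↔
      (∃ m < P.M, ∃ a' ∈ P.kids (j + 1) a,
        c ∈ rd P mc ω vis h j (i * P.M + m) a' (b - ω.xi (j + 1) m - P.pen (j + 1) 1 a a')) ∨
      (∃ s < P.S, 2 ^ s ∣ j + 1 ∧ ∃ q < mc.cnt s, ∃ κ < (b + P.H + 1).toNat,
        ∃ m < P.M ^ 2 ^ s, c ∈ rd P mc ω vis h (j + 1 - 2 ^ s) (i * P.M ^ 2 ^ s + m)
          (laneOf P mc ω vis h (rd P mc ω vis h) (j + 1) i a s q κ m).1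
          (uidx P ω (j + 1) a s κ m
            (laneOf P mc ω vis h (rd P mc ω vis h) (j + 1) i a s q κ m).1 + 2 ^ s)) := by
  rw [rd_succ]
  unfold stepRead
  simp only [Finset.mem_union, Finset.mem_biUnion, Finset.mem_range, Finset.mem_filter,
    Nat.add_sub_cancel, and_assoc]

theorem mem_rd0 {i a : ℕ} {b : ℤ} {c : ℕ × ℕ} :
    c ∈ rd P mc ω vis h 0 i a b ↔ 0 ≤ b ∧ c = (i, a) := by
  rw [rd_zero]
  split_ifs with hb
  · simp [hb]
  · simp [not_lt.1 hb]

theorem rd_mono {b b' : ℤ} (hb : b ≤ b') (j i a : ℕ) :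
    rd P mc ω vis h j i a b ⊆ rd P mc ω vis h j i a b' := by
  induction j generalizing i a b b' with
  | zero =>
    intro c hc
    rw [mem_rd0] at hc ⊢
    exact ⟨hc.1.trans hb, hc.2⟩
  | succ j ih =>
    intro c hc
    rw [mem_rd] at hc ⊢
    rcases hc with ⟨m, hm, k', h1, h3⟩ | ⟨s, hs, hs', q, hq, κ, hκ, m, hm, h3⟩
    · exact Or.inl ⟨m, hm, k', h1, ih (by omega) _ _ h3⟩
    · exact Or.inr ⟨s, hs, hs', q, hq, κ, by omega, m, hm, h3⟩

theorem rd_child {j i a m a' : ℕ} (hm : m < P.M) (h1 : a' ∈ P.kids (j + 1) a) (b : ℤ) :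
    rd P mc ω vis h j (i * P.M + m) a' (b - ω.xi (j + 1) m - P.pen (j + 1) 1 a a') ⊆
      rd P mc ω vis h (j + 1) i a b := by
  intro c hc
  rw [mem_rd]
  exact Or.inl ⟨m, hm, a', h1, hc⟩

theorem Xi_succ' (P : Par) (ω : Rnd) (j e m : ℕ) :
    Xi P ω j (e + 1) m = ω.xi j (m / P.M ^ e % P.M) + Xi P ω (j - 1) e m := by
  unfold Xi
  rw [Finset.sum_range_succ', add_comm]
  congr 1
  refine Finset.sum_congr rfl fun x hx => ?_
  have h1 : j - (x + 1) = j - 1 - x := by omega
  have h2 : e + 1 - 1 - (x + 1) = e - 1 - x := by omega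
  rw [h1, h2]

/-- Only the last `e` digits matter. -/
theorem Xi_mod (hM : 0 < P.M) (ω : Rnd) (j e m : ℕ) :
    Xi P ω j e (m % P.M ^ e) = Xi P ω j e m := by
  unfold Xi
  refine Finset.sum_congr rfl fun x hx => ?_
  have hx := Finset.mem_range.1 hx
  have h1 : P.M ^ e = P.M ^ (e - 1 - x) * (P.M * P.M ^ x) := by
    rw [← mul_assoc, ← pow_succ, ← pow_add]
    congr 1
    omega
  have h0 : ∀ t : ℕ, P.M ^ e * t = P.M ^ (e - 1 - x) * (P.M * (P.M ^ x * t)) := by
    intro t
    rw [h1]; ring
  have h2 : m = m % P.M ^ e + P.M ^ (e - 1 - x) * (P.M * (P.M ^ x * (m / P.M ^ e))) := by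
    rw [← h0]
    exact (Nat.mod_add_div m (P.M ^ e)).symm
  conv_rhs => rw [h2]
  rw [Nat.add_mul_div_left _ _ (pow_pos hM _), Nat.add_mul_mod_self_left]

theorem xi_mod (hM : 0 < P.M) (m e : ℕ) (hm : m < P.M ^ (e + 1)) :
    m / P.M ^ e % P.M = m / P.M ^ e := by
  refine Nat.mod_eq_of_lt ?_
  rw [Nat.div_lt_iff_lt_mul (pow_pos hM e), ← pow_succ']
  exact hm

/-- The read set of a descendant lies in the read set of a child, and in the read set of the
region. -/
theorem rd_desc (hM : 0 < P.M) (hpen : PenOK P) (hpen0 : ∀ j a, P.pen j 0 a a = 0) :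
    ∀ {e j i a m x : ℕ}, e ≤ j → m < P.M ^ e → x ∈ P.desc j e a → ∀ b : ℤ,
    rd P mc ω vis h (j - e) (i * P.M ^ e + m) x (b - Xi P ω j e m - P.pen j e a x) ⊆
      rd P mc ω vis h j i a b := by
  intro e
  induction e with
  | zero =>
    intro j i a m x _ hm hx b
    obtain rfl : m = 0 := by simpa using hm
    have hx : x = a := by simpa [Par.desc] using hx
    subst hx
    simp [Xi, hpen0]
  | succ e ih =>
    intro j i a m x he hm hx b
    obtain ⟨j, rfl⟩ : ∃ j', j = j' + 1 := ⟨j - 1, by omega⟩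
    obtain ⟨a', ha', hx', hp⟩ := hpen _ _ _ _ hx
    rw [Nat.add_sub_cancel] at hx' hp
    have hMe : 0 < P.M ^ e := pow_pos hM e
    have hm' : m / P.M ^ e < P.M := by
      rw [Nat.div_lt_iff_lt_mul hMe, ← pow_succ']
      exact hm
    have h1 := ih (i := i * P.M + m / P.M ^ e) (m := m % P.M ^ e) (by omega : e ≤ j)
      (Nat.mod_lt _ hMe) hx'
      (b - ω.xi (j + 1) (m / P.M ^ e) - P.pen (j + 1) 1 a a')
    refine Finset.Subset.trans ?_ (h1.trans (rd_child hm' ha' b))
    have h2 : (i * P.M + m / P.M ^ e) * P.M ^ e + m % P.M ^ e = i * P.M ^ (e + 1) + m := by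
      have := Nat.div_add_mod' m (P.M ^ e)
      rw [add_mul, mul_assoc, ← pow_succ', add_assoc, this]
    have h3 : j + 1 - (e + 1) = j - e := by omega
    rw [h2, h3, Xi_mod hM]
    refine rd_mono ?_ _ _ _
    rw [Xi_succ', xi_mod hM m e hm, Nat.add_sub_cancel]
    push_cast
    have : (P.pen (j + 1) 1 a a' : ℤ) + P.pen j e a' x ≤ P.pen (j + 1) (e + 1) a x := by
      exact_mod_cast hp
    linarith

/-- A strict descendant at the index of the region is inside the read set of a child. -/
theorem rd_desc_child (hM : 0 < P.M) (hpen : PenOK P) (hpen0 : ∀ j a, P.pen j 0 a a = 0)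
    {e j i a m x : ℕ} (he : e ≤ j) (hm : m < P.M ^ (e + 1)) (hx : x ∈ P.desc (j + 1) (e + 1) a)
    (b : ℤ) :
    ∃ m' < P.M, ∃ a' ∈ P.kids (j + 1) a,
    rd P mc ω vis h (j - e) (i * P.M ^ (e + 1) + m) x
      (b - Xi P ω (j + 1) (e + 1) m - P.pen (j + 1) (e + 1) a x) ⊆
      rd P mc ω vis h j (i * P.M + m') a' (b - ω.xi (j + 1) m' - P.pen (j + 1) 1 a a') := by
  obtain ⟨a', ha', hx', hp⟩ := hpen _ _ _ _ hx
  rw [Nat.add_sub_cancel] at hx' hp
  have hMe : 0 < P.M ^ e := pow_pos hM e
  have hm' : m / P.M ^ e < P.M := by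
    rw [Nat.div_lt_iff_lt_mul hMe, ← pow_succ']
    exact hm
  refine ⟨m / P.M ^ e, hm', a', ha', ?_⟩
  have h1 := rd_desc (mc := mc) (ω := ω) (vis := vis) (h := h) hM hpen hpen0
    (i := i * P.M + m / P.M ^ e) (m := m % P.M ^ e) he
    (Nat.mod_lt _ hMe) hx' (b - ω.xi (j + 1) (m / P.M ^ e) - P.pen (j + 1) 1 a a')
  refine Finset.Subset.trans ?_ h1
  have h2 : (i * P.M + m / P.M ^ e) * P.M ^ e + m % P.M ^ e = i * P.M ^ (e + 1) + m := by
    have := Nat.div_add_mod' m (P.M ^ e)
    rw [add_mul, mul_assoc, ← pow_succ', add_assoc, this]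
  rw [h2, Xi_mod hM]
  refine rd_mono ?_ _ _ _
  rw [Xi_succ', xi_mod hM m e hm, Nat.add_sub_cancel]
  push_cast
  have : (P.pen (j + 1) 1 a a' : ℤ) + P.pen j e a' x ≤ P.pen (j + 1) (e + 1) a x := by
    exact_mod_cast hp
  linarith

end

/-! ### Reading inside `T` -/

section
variable {P : Par} {mc : Mach} {ω : Rnd} {vis hid : Leaf} {T : Finset (ℕ × ℕ)}

theorem known_known {R : Finset (ℕ × ℕ)} (hR : R ⊆ T) :
    known P vis (known P vis hid T) R = known P vis hid R := by
  funext i p q
  unfold known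
  by_cases h1 : ∃ a, (i, a) ∈ R ∧ P.cov a p
  · have h2 : ∃ a, (i, a) ∈ T ∧ P.cov a p := by
      obtain ⟨a, ha, hc⟩ := h1
      exact ⟨a, hR ha, hc⟩
    simp [h1, h2]
  · simp [h1]

theorem cval_known {R : Finset (ℕ × ℕ)} (hR : R ⊆ T) (j i u v : ℕ) :
    cval P vis (known P vis hid T) R j i u v = cval P vis hid R j i u v := by
  unfold cval
  rw [known_known hR]

/-- The units of the rounds `≤ κ` are inside the children. -/
theorem unit_sub (hM : 0 < P.M) (hpen : PenOK P) (hpen0 : ∀ j a, P.pen j 0 a a = 0)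
    {h : Leaf} {j i a s κ m x : ℕ} {b : ℤ} (hs : 2 ^ s ≤ j + 1) (hκ : (κ : ℤ) ≤ b + P.H)
    (hm : m < P.M ^ 2 ^ s) (hx : x ∈ P.desc (j + 1) (2 ^ s) a) :
    ∃ m' < P.M, ∃ a' ∈ P.kids (j + 1) a,
      rd P mc ω vis h (j + 1 - 2 ^ s) (i * P.M ^ 2 ^ s + m) x (uidx P ω (j + 1) a s κ m x) ⊆
        rd P mc ω vis h j (i * P.M + m') a' (b - ω.xi (j + 1) m' - P.pen (j + 1) 1 a a') := by
  have h1 : 1 ≤ 2 ^ s := Nat.one_le_two_pow
  obtain ⟨e, he⟩ : ∃ e, 2 ^ s = e + 1 := ⟨2 ^ s - 1, by omega⟩
  unfold uidx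
  rw [he] at hs hm hx ⊢
  obtain ⟨m', hm', a', ha', hsub⟩ := rd_desc_child (mc := mc) (ω := ω) (vis := vis) (h := h)
    hM hpen hpen0 (i := i) (by omega : e ≤ j) hm hx b
  refine ⟨m', hm', a', ha', Finset.Subset.trans ?_ hsub⟩
  have h3 : j + 1 - (e + 1) = j - e := by omega
  rw [h3]
  exact rd_mono (by linarith) _ _ _

/-- If all children read inside `T` and their read sets are the true ones, then the lanes are the
true ones. -/
theorem lane_eq (hM : 0 < P.M) (hpen : PenOK P) (hpen0 : ∀ j a, P.pen j 0 a a = 0)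
    (hloc : Loc P mc) {j i a : ℕ} {b : ℤ}
    (hT : ∀ m < P.M, ∀ a' ∈ P.kids (j + 1) a,
      rd P mc ω vis (known P vis hid T) j (i * P.M + m) a'
        (b - ω.xi (j + 1) m - P.pen (j + 1) 1 a a') ⊆ T)
    (ih : ∀ j' ≤ j, ∀ i a b, rd P mc ω vis (known P vis hid T) j' i a b ⊆ T →
      rd P mc ω vis (known P vis hid T) j' i a b = rd P mc ω vis hid j' i a b)
    {s q κ m : ℕ} (hs : 2 ^ s ≤ j + 1) (hκ : (κ : ℤ) ≤ b + P.H) (hm : m < P.M ^ 2 ^ s) :
    laneOf P mc ω vis (known P vis hid T) (rd P mc ω vis (known P vis hid T)) (j + 1) i a s q κ m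
      = laneOf P mc ω vis hid (rd P mc ω vis hid) (j + 1) i a s q κ m := by
  unfold laneOf
  refine hloc s q κ (j + 1) a _ _ _ ?_ m hm
  intro κ' hκ' m' hm' x hx u v
  unfold hist
  obtain ⟨m1, hm1, a1, ha1, hsub⟩ := unit_sub (mc := mc) (ω := ω) (vis := vis)
    (h := known P vis hid T) hM hpen hpen0 (i := i) (b := b) (κ := κ') hs
    (by have : (κ' : ℤ) ≤ κ := by exact_mod_cast hκ'
        linarith) hm' hx
  have h1 := hsub.trans (hT m1 hm1 a1 ha1)
  have h2 : 1 ≤ 2 ^ s := Nat.one_le_two_pow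
  have h3 := ih (j + 1 - 2 ^ s) (by omega) _ _ _ h1
  rw [cval_known h1, h3]

/-- **(i)** If the read set computed from the known cells is inside the known cells, then it is the
true read set. -/
theorem rd_eq_of_subset (hM : 0 < P.M) (hpen : PenOK P) (hpen0 : ∀ j a, P.pen j 0 a a = 0)
    (hloc : Loc P mc) (j : ℕ) : ∀ (i a : ℕ) (b : ℤ),
    rd P mc ω vis (known P vis hid T) j i a b ⊆ T →
    rd P mc ω vis (known P vis hid T) j i a b = rd P mc ω vis hid j i a b := by
  induction j using Nat.strong_induction_on with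
  | _ j ih =>
    intro i a b hsub
    cases j with
    | zero => rfl
    | succ j =>
      have ih' : ∀ j' ≤ j, ∀ i a b, rd P mc ω vis (known P vis hid T) j' i a b ⊆ T →
          rd P mc ω vis (known P vis hid T) j' i a b = rd P mc ω vis hid j' i a b :=
        fun j' hj' => ih j' (by omega)
      have hT : ∀ m < P.M, ∀ a' ∈ P.kids (j + 1) a,
          rd P mc ω vis (known P vis hid T) j (i * P.M + m) a'
            (b - ω.xi (j + 1) m - P.pen (j + 1) 1 a a') ⊆ T :=
        fun m hm a' ha' => (rd_child hm ha' b).trans hsub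
      have hl : ∀ s q κ m, 2 ^ s ∣ j + 1 → κ < (b + P.H + 1).toNat → m < P.M ^ 2 ^ s →
          laneOf P mc ω vis (known P vis hid T) (rd P mc ω vis (known P vis hid T))
            (j + 1) i a s q κ m
          = laneOf P mc ω vis hid (rd P mc ω vis hid) (j + 1) i a s q κ m := by
        intro s q κ m hs hκ hm
        exact lane_eq hM hpen hpen0 hloc hT ih' (Nat.le_of_dvd (Nat.succ_pos j) hs)
          (by omega) hm
      have hone : ∀ s, 1 ≤ 2 ^ s := fun s => Nat.one_le_two_pow
      ext c
      rw [mem_rd, mem_rd]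
      refine or_congr ?_ ?_
      · refine exists_congr fun m => and_congr_right fun hm => exists_congr fun a' =>
          and_congr_right fun ha' => ?_
        rw [ih' j le_rfl _ _ _ (hT m hm a' ha')]
      · refine exists_congr fun s => and_congr_right fun hs => and_congr_right fun hs' =>
          exists_congr fun q => and_congr_right fun hq => exists_congr fun κ =>
          and_congr_right fun hκ => exists_congr fun m => and_congr_right fun hm => ?_
        have h4 := hl s q κ m hs' hκ hm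
        have h5 : rd P mc ω vis (known P vis hid T) (j + 1 - 2 ^ s) (i * P.M ^ 2 ^ s + m)
            (laneOf P mc ω vis (known P vis hid T) (rd P mc ω vis (known P vis hid T))
              (j + 1) i a s q κ m).1
            (uidx P ω (j + 1) a s κ m
              (laneOf P mc ω vis (known P vis hid T) (rd P mc ω vis (known P vis hid T))
                (j + 1) i a s q κ m).1 + 2 ^ s) ⊆ T := by
          refine Finset.Subset.trans ?_ hsub
          intro c hc
          rw [mem_rd]
          exact Or.inr ⟨s, hs, hs', q, hq, κ, hκ, m, hm, hc⟩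
        have h6 := ih' (j + 1 - 2 ^ s) (by have := hone s; omega) _ _ _ h5
        rw [h6, h4]

/-- If the read set computed from the known cells is inside the known cells, then the certified
costs are the true ones. -/
theorem cR_eq_of_subset (hM : 0 < P.M) (hpen : PenOK P) (hpen0 : ∀ j a, P.pen j 0 a a = 0)
    (hloc : Loc P mc) {j i a : ℕ} {b : ℤ}
    (hsub : rd P mc ω vis (known P vis hid T) j i a b ⊆ T) (u v : ℕ) :
    cR P mc ω vis (known P vis hid T) j i a b u v = cR P mc ω vis hid j i a b u v := by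
  unfold cR
  rw [cval_known hsub, rd_eq_of_subset hM hpen hpen0 hloc j i a b hsub]

end

/-! ### Ordered lists -/

/-- Ordered read lists of level `j ≥ 1` from those of the lower levels; `kl` = ordered lists of
the children labels, `lab i a s q κ m` = label of the lane; natural indices `n = b + H + 1`. -/
def stepL (P : Par) (mc : Mach) (ω : Rnd) (kl : ℕ → ℕ → List ℕ) (j : ℕ)
    (lab : ℕ → ℕ → ℕ → ℕ → ℕ → ℕ → ℕ) (L : ℕ → ℕ → ℕ → ℕ → List (ℕ × ℕ)) (i a n : ℕ) :
    List (ℕ × ℕ) :=
  ded (((List.range P.M).flatMap fun m => (kl j a).flatMap fun a' =>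
      L (j - 1) (i * P.M + m) a' (n - (ω.xi j m + P.pen j 1 a a'))) ++
    (((List.range P.S).filter fun s => 2 ^ s ∣ j).flatMap fun s =>
      (List.range (mc.cnt s)).flatMap fun q => (List.range n).flatMap fun κ =>
        (List.range (P.M ^ 2 ^ s)).flatMap fun m =>
          L (j - 2 ^ s) (i * P.M ^ 2 ^ s + m) (lab i a s q κ m)
            (κ + 1 + 2 ^ s - (Xi P ω j (2 ^ s) m + P.pen j (2 ^ s) a (lab i a s q κ m)))))

/-- Ordered read lists of the levels `≤ j`. -/
noncomputable def LD (P : Par) (mc : Mach) (ω : Rnd) (vis h : Leaf) (kl : ℕ → ℕ → List ℕ) :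
    ℕ → ℕ → ℕ → ℕ → ℕ → List (ℕ × ℕ)
  | 0 => fun _ i a n => if n ≤ P.H then [] else [(i, a)]
  | j + 1 => fun l => if l ≤ j then LD P mc ω vis h kl j l
      else stepL P mc ω kl (j + 1)
        (fun i a s q κ m => (laneOf P mc ω vis h (rd P mc ω vis h) (j + 1) i a s q κ m).1)
        (LD P mc ω vis h kl j)

/-- Ordered read list of the region `(j, i, a)` at the index `n - H - 1`. -/
noncomputable def rdL (P : Par) (mc : Mach) (ω : Rnd) (vis h : Leaf) (kl : ℕ → ℕ → List ℕ)
    (j : ℕ) : ℕ → ℕ → ℕ → List (ℕ × ℕ) :=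
  LD P mc ω vis h kl j j

section
variable {P : Par} {mc : Mach} {ω : Rnd} {vis h : Leaf} {kl : ℕ → ℕ → List ℕ}

theorem LD_of_le {l j : ℕ} (hl : l ≤ j) : LD P mc ω vis h kl j l = rdL P mc ω vis h kl l := by
  induction j with
  | zero =>
    obtain rfl : l = 0 := by omega
    rfl
  | succ j ih =>
    rcases Nat.lt_or_ge j l with h' | h'
    · obtain rfl : l = j + 1 := by omega
      rfl
    · rw [← ih h']
      simp [LD, h']

theorem rdL_zero (i a n : ℕ) :
    rdL P mc ω vis h kl 0 i a n = if n ≤ P.H then [] else [(i, a)] := rfl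

theorem rdL_succ (j i a n : ℕ) :
    rdL P mc ω vis h kl (j + 1) i a n = stepL P mc ω kl (j + 1)
      (fun i a s q κ m => (laneOf P mc ω vis h (rd P mc ω vis h) (j + 1) i a s q κ m).1)
      (rdL P mc ω vis h kl) i a n := by
  have h1 : rdL P mc ω vis h kl (j + 1) = stepL P mc ω kl (j + 1)
      (fun i a s q κ m => (laneOf P mc ω vis h (rd P mc ω vis h) (j + 1) i a s q κ m).1)
      (LD P mc ω vis h kl j) := by
    unfold rdL
    simp [LD]
  rw [h1]
  unfold stepL
  have h2 : LD P mc ω vis h kl j (j + 1 - 1) = rdL P mc ω vis h kl (j + 1 - 1) :=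
    LD_of_le (by omega)
  have h3 : ∀ s, LD P mc ω vis h kl j (j + 1 - 2 ^ s) = rdL P mc ω vis h kl (j + 1 - 2 ^ s) :=
    fun s => LD_of_le (by have := Nat.one_le_two_pow (n := s); omega)
  rw [h2]
  simp only [h3]

theorem mem_stepL {j : ℕ} {lab : ℕ → ℕ → ℕ → ℕ → ℕ → ℕ → ℕ}
    {L : ℕ → ℕ → ℕ → ℕ → List (ℕ × ℕ)} {i a n : ℕ} {c : ℕ × ℕ} :
    c ∈ stepL P mc ω kl j lab L i a n ↔
      (∃ m < P.M, ∃ a' ∈ kl j a,
        c ∈ L (j - 1) (i * P.M + m) a' (n - (ω.xi j m + P.pen j 1 a a'))) ∨
      (∃ s < P.S, 2 ^ s ∣ j ∧ ∃ q < mc.cnt s, ∃ κ < n, ∃ m < P.M ^ 2 ^ s,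
        c ∈ L (j - 2 ^ s) (i * P.M ^ 2 ^ s + m) (lab i a s q κ m)
            (κ + 1 + 2 ^ s - (Xi P ω j (2 ^ s) m + P.pen j (2 ^ s) a (lab i a s q κ m)))) := by
  unfold stepL
  rw [mem_ded, List.mem_append]
  simp only [List.mem_flatMap, List.mem_range, List.mem_filter, decide_eq_true_eq, and_assoc]

/-- Nothing is read at the indices below `-H`. -/
theorem rd_empty' {j : ℕ} {b : ℤ} (hb : b < -(P.H : ℤ)) (i a : ℕ) :
    rd P mc ω vis h j i a b = ∅ := by
  rw [Finset.eq_empty_iff_forall_notMem]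
  intro c hc
  induction j generalizing i a b with
  | zero =>
    rw [mem_rd0] at hc
    omega
  | succ j ih =>
    rw [mem_rd] at hc
    rcases hc with ⟨m, hm, k', h1, h3⟩ | ⟨s, hs, hs', q, hq, κ, hκ, m, hm, h3⟩
    · exact ih (by omega) _ _ h3
    · omega

/-- The index `n - H - 1`, cut off at `-H - 1`. -/
theorem rd_cut (j i a n m : ℕ) :
    rd P mc ω vis h j i a ((n : ℤ) - P.H - 1 - m) =
      rd P mc ω vis h j i a (((n - m : ℕ) : ℤ) - P.H - 1) := by
  rcases Nat.le_total m n with hmn | hmn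
  · congr 1
    rw [Nat.cast_sub hmn]
    ring
  · rw [Nat.sub_eq_zero_of_le hmn]
    rcases Nat.lt_or_ge n m with h1 | h1
    · rw [rd_empty' (by omega), rd_empty' (by omega)]
    · have : m = n := le_antisymm h1 hmn
      subst this
      congr 1
      ring

/-- The ordered list enumerates the read set. -/
theorem mem_rdL (hkl : ∀ j a, (kl j a).toFinset = P.kids j a) (j : ℕ) : ∀ (i a n : ℕ)
    (c : ℕ × ℕ), c ∈ rdL P mc ω vis h kl j i a n ↔
      c ∈ rd P mc ω vis h j i a ((n : ℤ) - P.H - 1) := by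
  induction j using Nat.strong_induction_on with
  | _ j ih =>
    intro i a n c
    cases j with
    | zero =>
      rw [rdL_zero, mem_rd0]
      split_ifs with hn
      · simp only [List.not_mem_nil, false_iff, not_and]
        intro h1
        omega
      · rw [List.mem_singleton]
        constructor
        · intro h1
          exact ⟨by omega, h1⟩
        · exact fun h1 => h1.2
    | succ j =>
      rw [rdL_succ, mem_stepL, mem_rd]
      refine or_congr ?_ ?_
      · refine exists_congr fun m => and_congr_right fun hm => exists_congr fun a' => ?_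
        have h1 : a' ∈ kl (j + 1) a ↔ a' ∈ P.kids (j + 1) a := by
          rw [← hkl, List.mem_toFinset]
        rw [h1]
        refine and_congr_right fun ha' => ?_
        rw [Nat.add_sub_cancel, ih j (by omega), ← rd_cut]
        have h2 : (n : ℤ) - P.H - 1 - ((ω.xi (j + 1) m + P.pen (j + 1) 1 a a' : ℕ) : ℤ) =
            (n : ℤ) - P.H - 1 - ω.xi (j + 1) m - P.pen (j + 1) 1 a a' := by
          push_cast; ring
        rw [h2]
      · have hn : ((n : ℤ) - P.H - 1 + P.H + 1).toNat = n := by
          have : (n : ℤ) - P.H - 1 + P.H + 1 = n := by ring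
          rw [this, Int.toNat_natCast]
        rw [hn]
        refine exists_congr fun s => and_congr_right fun hs => and_congr_right fun hs' =>
          exists_congr fun q => and_congr_right fun hq => exists_congr fun κ =>
          and_congr_right fun hκ => exists_congr fun m => and_congr_right fun hm => ?_
        have hone : 1 ≤ 2 ^ s := Nat.one_le_two_pow
        rw [ih (j + 1 - 2 ^ s) (by omega), ← rd_cut]
        unfold uidx
        have h2 : ∀ x : ℕ, ((κ + 1 + 2 ^ s : ℕ) : ℤ) - P.H - 1 -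
            ((Xi P ω (j + 1) (2 ^ s) m + P.pen (j + 1) (2 ^ s) a x : ℕ) : ℤ) =
            (κ : ℤ) - P.H - Xi P ω (j + 1) (2 ^ s) m - P.pen (j + 1) (2 ^ s) a x + 2 ^ s := by
          intro x
          push_cast; ring
        rw [h2]

theorem toFinset_rdL (hkl : ∀ j a, (kl j a).toFinset = P.kids j a) (j i a n : ℕ) :
    (rdL P mc ω vis h kl j i a n).toFinset =
      rd P mc ω vis h j i a ((n : ℤ) - P.H - 1) := by
  ext c
  rw [List.mem_toFinset, mem_rdL hkl]

theorem nodup_rdL (j i a n : ℕ) : (rdL P mc ω vis h kl j i a n).Nodup := by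
  cases j with
  | zero => rw [rdL_zero]; split_ifs <;> simp
  | succ j => rw [rdL_succ]; exact nodup_ded _

end

/-! ### The first unknown cell -/

theorem find_flatMap_some {α : Type*} {l : List α} {f : α → List (ℕ × ℕ)}
    {p : ℕ × ℕ → Bool} {c : ℕ × ℕ} (h : (l.flatMap f).find? p = some c) :
    ∃ x ∈ l, (f x).find? p = some c := by
  induction l with
  | nil => simp at h
  | cons y l ih =>
    rw [List.flatMap_cons, List.find?_append] at h
    cases hy : (f y).find? p with
    | some z =>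
      rw [hy] at h
      exact ⟨y, List.mem_cons_self, by rw [hy]; simpa using h⟩
    | none =>
      rw [hy] at h
      obtain ⟨x, hx, hc⟩ := ih (by simpa using h)
      exact ⟨x, List.mem_cons_of_mem _ hx, hc⟩

section
variable {P : Par} {mc : Mach} {ω : Rnd} {vis hid : Leaf} {T : Finset (ℕ × ℕ)}
  {kl : ℕ → ℕ → List ℕ}

/-- **(ii)** The first unknown cell of the read list computed from the known cells belongs to the
true read set. -/
theorem find_mem (hM : 0 < P.M) (hpen : PenOK P) (hpen0 : ∀ j a, P.pen j 0 a a = 0)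
    (hloc : Loc P mc) (hkl : ∀ j a, (kl j a).toFinset = P.kids j a) (j : ℕ) :
    ∀ (i a n : ℕ) (c : ℕ × ℕ),
    (rdL P mc ω vis (known P vis hid T) kl j i a n).find? (fun c => decide (c ∉ T)) = some c →
    c ∈ rd P mc ω vis hid j i a ((n : ℤ) - P.H - 1) := by
  induction j using Nat.strong_induction_on with
  | _ j ih =>
    intro i a n c hc
    cases j with
    | zero =>
      have h1 : rdL P mc ω vis (known P vis hid T) kl 0 i a n = rdL P mc ω vis hid kl 0 i a n :=
        rfl
      rw [h1] at hc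
      exact (mem_rdL hkl 0 i a n c).1 (List.mem_of_find?_eq_some hc)
    | succ j =>
      rw [rdL_succ] at hc
      unfold stepL at hc
      rw [find_ded, List.find?_append, Option.or_eq_some_iff] at hc
      rcases hc with hc | ⟨hnone, hc⟩
      · obtain ⟨m, hm, hc⟩ := find_flatMap_some hc
        obtain ⟨a', ha', hc⟩ := find_flatMap_some hc
        rw [Nat.add_sub_cancel] at hc
        have h1 := ih j (by omega) _ _ _ _ hc
        rw [← rd_cut] at h1
        refine rd_child (List.mem_range.1 hm)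
          (by rw [← hkl, List.mem_toFinset]; exact ha') _ ?_
        have h2 : (n : ℤ) - P.H - 1 - ((ω.xi (j + 1) m + P.pen (j + 1) 1 a a' : ℕ) : ℤ) =
            (n : ℤ) - P.H - 1 - ω.xi (j + 1) m - P.pen (j + 1) 1 a a' := by
          push_cast; ring
        rw [← h2]
        exact h1
      · -- all children are known
        have hT : ∀ m < P.M, ∀ a' ∈ P.kids (j + 1) a,
            rd P mc ω vis (known P vis hid T) j (i * P.M + m) a'
              (((n : ℤ) - P.H - 1) - ω.xi (j + 1) m - P.pen (j + 1) 1 a a') ⊆ T := by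
          intro m hm a' ha' c' hc'
          rw [List.find?_eq_none] at hnone
          have h2 : (n : ℤ) - P.H - 1 - ((ω.xi (j + 1) m + P.pen (j + 1) 1 a a' : ℕ) : ℤ) =
              (n : ℤ) - P.H - 1 - ω.xi (j + 1) m - P.pen (j + 1) 1 a a' := by
            push_cast; ring
          rw [← h2, rd_cut, ← mem_rdL hkl] at hc'
          have h3 := hnone c' (by
            rw [List.mem_flatMap]
            refine ⟨m, List.mem_range.2 hm, ?_⟩
            rw [List.mem_flatMap]
            refine ⟨a', by rw [← List.mem_toFinset, hkl]; exact ha', ?_⟩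
            rw [Nat.add_sub_cancel]
            exact hc')
          simpa using h3
        obtain ⟨s, hs, hc⟩ := find_flatMap_some hc
        obtain ⟨q, hq, hc⟩ := find_flatMap_some hc
        obtain ⟨κ, hκ, hc⟩ := find_flatMap_some hc
        obtain ⟨m, hm, hc⟩ := find_flatMap_some hc
        rw [List.mem_filter, List.mem_range, decide_eq_true_eq] at hs
        rw [List.mem_range] at hq hκ hm
        have hle := Nat.le_of_dvd (Nat.succ_pos j) hs.2
        have hone : 1 ≤ 2 ^ s := Nat.one_le_two_pow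
        have h4 := lane_eq (q := q) hM hpen hpen0 hloc hT
          (fun j' _ => rd_eq_of_subset (mc := mc) (ω := ω) hM hpen hpen0 hloc j')
          hle (by omega : (κ : ℤ) ≤ (n : ℤ) - P.H - 1 + P.H) hm
        simp only [h4] at hc
        have h1 := ih (j + 1 - 2 ^ s) (by omega) _ _ _ _ hc
        rw [← rd_cut] at h1
        rw [mem_rd]
        refine Or.inr ⟨s, hs.1, hs.2, q, hq, κ, by omega, m, hm, ?_⟩
        unfold uidx
        have h2 : ∀ x : ℕ, ((κ + 1 + 2 ^ s : ℕ) : ℤ) - P.H - 1 -
            ((Xi P ω (j + 1) (2 ^ s) m + P.pen (j + 1) (2 ^ s) a x : ℕ) : ℤ) =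
            (κ : ℤ) - P.H - Xi P ω (j + 1) (2 ^ s) m - P.pen (j + 1) (2 ^ s) a x + 2 ^ s := by
          intro x
          push_cast; ring
        rw [← h2]
        exact h1

end

/-! ### The loop -/

section
variable (P : Par) (mc : Mach) (ω : Rnd) (vis hid : Leaf) (kl : ℕ → ℕ → List ℕ)

/-- The next cell to read, if the cells in `T` have been read. -/
noncomputable def nextC (j i a n : ℕ) (T : Finset (ℕ × ℕ)) : Option (ℕ × ℕ) :=
  (rdL P mc ω vis (known P vis hid T) kl j i a n).find? fun c => decide (c ∉ T)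

/-- One step of the loop: read the next cell. -/
noncomputable def stepT (j i a n : ℕ) (T : Finset (ℕ × ℕ)) : Finset (ℕ × ℕ) :=
  (nextC P mc ω vis hid kl j i a n T).elim T fun c => insert c T

end

section
variable {P : Par} {mc : Mach} {ω : Rnd} {vis hid : Leaf} {T : Finset (ℕ × ℕ)}
  {kl : ℕ → ℕ → List ℕ}

/-- If there is no unknown cell then the known cells contain the true read set. -/
theorem rd_subset_of_nextC (hM : 0 < P.M) (hpen : PenOK P) (hpen0 : ∀ j a, P.pen j 0 a a = 0)
    (hloc : Loc P mc) (hkl : ∀ j a, (kl j a).toFinset = P.kids j a) {j i a n : ℕ}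
    (h : nextC P mc ω vis hid kl j i a n T = none) :
    rd P mc ω vis hid j i a ((n : ℤ) - P.H - 1) ⊆ T := by
  have h1 : rd P mc ω vis (known P vis hid T) j i a ((n : ℤ) - P.H - 1) ⊆ T := by
    intro c hc
    rw [← mem_rdL hkl] at hc
    have := List.find?_eq_none.1 h c hc
    simpa using this
  rw [← rd_eq_of_subset hM hpen hpen0 hloc j i a _ h1]
  exact h1

/-- After `t` steps: either exactly the true read set has been read, or `t` cells of it. -/
theorem iterate_stepT (hM : 0 < P.M) (hpen : PenOK P) (hpen0 : ∀ j a, P.pen j 0 a a = 0)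
    (hloc : Loc P mc) (hkl : ∀ j a, (kl j a).toFinset = P.kids j a) (j i a n t : ℕ) :
    (stepT P mc ω vis hid kl j i a n)^[t] ∅ ⊆ rd P mc ω vis hid j i a ((n : ℤ) - P.H - 1) ∧
    ((stepT P mc ω vis hid kl j i a n)^[t] ∅ = rd P mc ω vis hid j i a ((n : ℤ) - P.H - 1) ∨
      ((stepT P mc ω vis hid kl j i a n)^[t] ∅).card = t) := by
  induction t with
  | zero => simp
  | succ t ih =>
    rw [Function.iterate_succ_apply']
    set T := (stepT P mc ω vis hid kl j i a n)^[t] ∅ with hT
    obtain ⟨h1, h2⟩ := ih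
    unfold stepT
    cases hn : nextC P mc ω vis hid kl j i a n T with
    | none =>
      rw [Option.elim_none]
      exact ⟨h1, Or.inl (h1.antisymm (rd_subset_of_nextC hM hpen hpen0 hloc hkl hn))⟩
    | some c =>
      rw [Option.elim_some]
      have h3 := find_mem hM hpen hpen0 hloc hkl j i a n c hn
      have h4 : c ∉ T := by
        have := List.find?_some hn
        simpa using this
      refine ⟨Finset.insert_subset h3 h1, Or.inr ?_⟩
      rw [Finset.card_insert_of_notMem h4]
      rcases h2 with h2 | h2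
      · exact absurd (h2 ▸ h3) h4
      · rw [h2]

/-- **The loop reads exactly the true read set** after at most as many steps as it has cells. -/
theorem iterate_stepT_eq (hM : 0 < P.M) (hpen : PenOK P) (hpen0 : ∀ j a, P.pen j 0 a a = 0)
    (hloc : Loc P mc) (hkl : ∀ j a, (kl j a).toFinset = P.kids j a) {j i a n t : ℕ}
    (ht : (rd P mc ω vis hid j i a ((n : ℤ) - P.H - 1)).card ≤ t) :
    (stepT P mc ω vis hid kl j i a n)^[t] ∅ = rd P mc ω vis hid j i a ((n : ℤ) - P.H - 1) := by
  obtain ⟨h1, h2 | h2⟩ := iterate_stepT (ω := ω) (vis := vis) (hid := hid) hM hpen hpen0 hloc hkl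
    j i a n t
  · exact h2
  · exact Finset.eq_of_subset_of_card_le h1 (by rw [h2]; exact ht)

end

/-! ### The additive geometry -/

theorem penOK_box (M ℓ μ B J S H : ℕ) : PenOK (boxPar M ℓ μ B J S H) := by
  intro j e a x hx
  unfold Par.desc at hx
  rw [Finset.mem_biUnion] at hx
  obtain ⟨a', ha', hx'⟩ := hx
  exact ⟨a', ha', hx', le_rfl⟩

/-- Ordered list of the children labels. -/
def klBox (M : ℕ) : ℕ → ℕ → List ℕ := fun _ a => List.range' (a * M) (2 * M)

theorem klBox_eq (M ℓ μ B J S H j a : ℕ) :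
    (klBox M j a).toFinset = (boxPar M ℓ μ B J S H).kids j a := by
  ext x
  show x ∈ (List.range' (a * M) (2 * M)).toFinset ↔ x ∈ Finset.Ico (a * M) ((a + 2) * M)
  rw [List.mem_toFinset, List.mem_range'_1, Finset.mem_Ico, add_mul]

end Vale.Agent.P315.H804
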