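import Vale.Agent.P315.H207.RdL
import Vale.Agent.P315.H804.First
import Vale.Agent.P315.Q.KnownG

/-!
P315 (helper804), row G-STRAT: the instance of the causal read lists (`H207/RdL.lean`) for a
geometry `P : Par` with executable tests, with the certified costs of `Q/KnownG.lean`, and the
result of the query loop. `box…`: the additive geometry.
-/

set_option autoImplicit false

namespace Vale.Agent.P315.H804

open Vale.Agent.P315.C Vale.Agent.P315.Q Vale.Agent.P315.H207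

/-- Certified cost from the answers `h` on the list `l`. -/
def cvOf (P : Par) (ad cvb : ℕ → ℕ → Bool) (idx : ℕ → ℕ → ℕ → ℕ) (vis : Leaf)
    (h : Cell → List ℕ) (l : List Cell) (j i u v : ℕ) : ℕ :=
  (cvalGF (P.B / P.μ + 1) P.μ P.sh ad cvb idx vis (l.map fun c => (c, h c)) (P.M ^ j) i
    (u / P.μ)).getD (v / P.μ) 0

/-- The strategy. -/
def strat (P : Par) (mc : Mach) (ω : Rnd) (kidsL : ℕ → ℕ → List ℕ)
    (labs : ℕ → ℕ → ℕ → ℕ → List ℕ) (ad cvb : ℕ → ℕ → Bool) (idx : ℕ → ℕ → ℕ → ℕ)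
    (vis : Leaf) : Strat (List ℕ) where
  P := P
  mc := mc
  ω := ω
  kidsL := kidsL
  labs := labs
  cv := cvOf P ad cvb idx vis

/-- Mesh positions. -/
def Pos (P : Par) (u : ℕ) : Prop := P.μ ∣ u ∧ u ≤ P.B

/-- The answers are correct on the admissible mesh steps that start in the cell. -/
def AnsOK (P : Par) (idx : ℕ → ℕ → ℕ → ℕ) (hid : Leaf) (h : Cell → List ℕ) : Prop :=
  ∀ i a p q, P.μ ∣ p → P.μ ∣ q → p ≤ P.B → q ≤ P.B → P.adm p q → P.cov a p →
    (h (i, a)).getD (idx a p q) 0 = hid i p q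

/-- A machine looks only at the rounds up to the present one, at the listed labels, and at the
mesh positions. -/
def LaneLoc (P : Par) (mc : Mach) (labs : ℕ → ℕ → ℕ → ℕ → List ℕ) : Prop :=
  ∀ s q κ j a (D D' : ℕ → ℕ → ℕ → ℕ → ℕ → ℕ) (coin : ℕ → ℕ), s < P.S → 2 ^ s ∣ j → 0 < j →
    (∀ κ' ≤ κ, ∀ m < P.M ^ 2 ^ s, ∀ x ∈ labs j s a m, ∀ u v, Pos P u → Pos P v →
      D κ' m x u v = D' κ' m x u v) →
    ∀ m < P.M ^ 2 ^ s, mc.lane s q κ j a D coin m = mc.lane s q κ j a D' coin m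

/-- The pieces of the lanes are units of the region. -/
def LaneLab (P : Par) (mc : Mach) : Prop :=
  ∀ s q κ j a D coin m, 0 < j → s < P.S → 2 ^ s ∣ j → q < mc.cnt s → m < P.M ^ 2 ^ s →
    (mc.lane s q κ j a D coin m).1 ∈ P.desc j (2 ^ s) a

section
variable {P : Par} {mc : Mach} {ω : Rnd} {kidsL : ℕ → ℕ → List ℕ}
  {labs : ℕ → ℕ → ℕ → ℕ → List ℕ} {ad cvb : ℕ → ℕ → Bool} {idx : ℕ → ℕ → ℕ → ℕ}
  {vis hid : Leaf} {h : Cell → List ℕ}

theorem okG_of_ans (hans : AnsOK P idx hid h) {T : KT} (hT : ∀ c ∈ T, c.2 = h c.1) :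
    T.OkG P idx hid := by
  intro c hc p q hp hq hpB hqB had hcov
  rw [hT c hc]
  exact hans _ _ _ _ hp hq hpB hqB had hcov

theorem keys_map (l : List Cell) (h : Cell → List ℕ) :
    KT.keys (l.map fun c => (c, h c)) = l.toFinset := by
  unfold KT.keys
  rw [List.map_map]
  congr 1
  exact List.map_id' l

theorem cvOf_eq (hμ : 0 < P.μ) (had : ∀ p q, ad p q = true ↔ P.adm p q)
    (hcvb : ∀ a p, cvb a p = true ↔ P.cov a p) (hans : AnsOK P idx hid h) (l : List Cell)
    (j i u v : ℕ) (hu : Pos P u) (hv : Pos P v) :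
    cvOf P ad cvb idx vis h l j i u v = cval P vis hid l.toFinset j i u v := by
  unfold cvOf
  have hv' : P.μ * (v / P.μ) = v := Nat.mul_div_cancel' hv.1
  have hu' : P.μ * (u / P.μ) = u := Nat.mul_div_cancel' hu.1
  rw [cvalGF_eq P hμ had hcvb vis hid (okG_of_ans hans (T := l.map fun c => (c, h c)) ?_) j i
    (u / P.μ) (by rw [hv']; exact hv.2), hu', hv', keys_map]
  intro c hc
  obtain ⟨d, _, rfl⟩ := List.mem_map.1 hc
  rfl

theorem strat_loc (hlane : LaneLoc P mc labs) :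
    (strat P mc ω kidsL labs ad cvb idx vis).Loc (Pos P) where
  cv := by
    intro h h' l hl
    show cvOf P ad cvb idx vis h l = cvOf P ad cvb idx vis h' l
    unfold cvOf
    have : (l.map fun c => (c, h c)) = l.map fun c => (c, h' c) :=
      List.map_congr_left fun c hc => by rw [hl c hc]
    rw [this]
  lane := hlane

/-- Valid labels are closed under descendants. -/
theorem valid_desc {V : ℕ → ℕ → Prop}
    (hV : ∀ j a, 0 < j → V j a → ∀ a' ∈ P.kids j a, V (j - 1) a') :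
    ∀ e j a x, e ≤ j → V j a → x ∈ P.desc j e a → V (j - e) x := by
  intro e
  induction e with
  | zero =>
    intro j a x _ hVa hx
    have hx : x = a := by simpa [Par.desc] using hx
    rw [hx]; exact hVa
  | succ e ih =>
    intro j a x he hVa hx
    unfold Par.desc at hx
    rw [Finset.mem_biUnion] at hx
    obtain ⟨a', ha', hx⟩ := hx
    have := ih (j - 1) a' x (by omega) (hV j a (by omega) hVa a' ha') hx
    rwa [show j - 1 - e = j - (e + 1) by omega] at this

/-- **The instance is faithful.** -/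
theorem faithful {V : ℕ → ℕ → Prop} (hM : 0 < P.M) (hμ : 0 < P.μ)
    (had : ∀ p q, ad p q = true ↔ P.adm p q) (hcvb : ∀ a p, cvb a p = true ↔ P.cov a p)
    (hans : AnsOK P idx hid h) (hkids : ∀ j a, (kidsL j a).toFinset = P.kids j a)
    (hlabs : ∀ j s a m, 0 < j → s < P.S → 2 ^ s ∣ j → V j a → ∀ x ∈ labs j s a m,
      x ∈ P.desc j (2 ^ s) a)
    (hV : ∀ j a, 0 < j → V j a → ∀ a' ∈ P.kids j a, V (j - 1) a')
    (hpen : PenOK P) (hpen0 : ∀ j a, P.pen j 0 a a = 0)
    (hlane : LaneLoc P mc labs) (hlab : LaneLab P mc) :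
    (strat P mc ω kidsL labs ad cvb idx vis).Faithful (Pos P) V vis hid h where
  loc := strat_loc hlane
  cv := fun l j i u v hu hv => cvOf_eq hμ had hcvb hans l j i u v hu hv
  kids := hkids
  vkids := hV
  vlabs := by
    intro j a s m hj hs hd hVa _ x hx
    exact valid_desc hV _ _ _ _ (Nat.le_of_dvd hj hd) hVa (hlabs j s a m hj hs hd hVa x hx)
  vlane := by
    intro s q κ j a D coin m hj hs hd hVa hq hm
    exact valid_desc hV _ _ _ _ (Nat.le_of_dvd hj hd) hVa (hlab s q κ j a D coin m hj hs hd hq hm)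
  nest := by
    intro j i a z s κ m x hj hs hd hVa hκ hm hx
    have hx' := hlabs j s a m hj hs hd hVa x hx
    refine Finset.Subset.trans ?_ (rd_desc (mc := mc) (ω := ω) (vis := vis) (h := hid)
      hM hpen hpen0 (Nat.le_of_dvd hj hd) hm hx' z)
    unfold uidx
    refine rd_mono ?_ _ _ _
    have h1 : (κ : ℤ) < z + P.H + 1 := by
      have : κ < (z + P.H + 1).toNat := hκ
      omega
    show (κ : ℤ) - P.H - Xi P ω j (2 ^ s) m - P.pen j (2 ^ s) a x ≤
      z - Xi P ω j (2 ^ s) m - P.pen j (2 ^ s) a x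
    linarith

/-- Read list of a region for the answers `h`. -/
def rlist (P : Par) (mc : Mach) (ω : Rnd) (kidsL : ℕ → ℕ → List ℕ)
    (labs : ℕ → ℕ → ℕ → ℕ → List ℕ) (ad cvb : ℕ → ℕ → Bool) (idx : ℕ → ℕ → ℕ → ℕ)
    (vis : Leaf) (j i a b : ℕ) (h : Cell → List ℕ) : List Cell :=
  (strat P mc ω kidsL labs ad cvb idx vis).RN h j i a b

/-- The value of the region from the known cells. -/
def outOf (P : Par) (ad cvb : ℕ → ℕ → Bool) (idx : ℕ → ℕ → ℕ → ℕ) (vis : Leaf) (j i u v : ℕ)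
    (T : KT) : ℕ :=
  (cvalGF (P.B / P.μ + 1) P.μ P.sh ad cvb idx vis T (P.M ^ j) i (u / P.μ)).getD (v / P.μ) 0

/-- **The query loop**: `T` = known cells with answers after `t` rounds. -/
theorem loop_spec {V : ℕ → ℕ → Prop} (hμ : 0 < P.μ)
    (had : ∀ p q, ad p q = true ↔ P.adm p q) (hcvb : ∀ a p, cvb a p = true ↔ P.cov a p)
    (hans : AnsOK P idx hid h)
    (hF : (strat P mc ω kidsL labs ad cvb idx vis).Faithful (Pos P) V vis hid h)
    (d : Cell → List ℕ) {j i a b u v : ℕ} (hVa : V j a) (hu : Pos P u) (hv : Pos P v) (t : ℕ)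
    (T : KT) (hT : T = (rnd (rlist P mc ω kidsL labs ad cvb idx vis j i a b) d h)^[t] []) :
    T.keys ⊆ rd P mc ω vis hid j i a ((b : ℤ) - P.H - 1) ∧
    outOf P ad cvb idx vis j i u v T = cval P vis hid T.keys j i u v ∧
    ((rd P mc ω vis hid j i a ((b : ℤ) - P.H - 1)).card ≤ t →
      T.keys = rd P mc ω vis hid j i a ((b : ℤ) - P.H - 1) ∧
      outOf P ad cvb idx vis j i u v T =
        cR P mc ω vis hid j i a ((b : ℤ) - P.H - 1) u v) := by
  set L := rlist P mc ω kidsL labs ad cvb idx vis j i a b with hL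
  have hc : Causal L := Strat.causal_RN hF.loc j i a b
  have hset : (L h).toFinset = rd P mc ω vis hid j i a ((b : ℤ) - P.H - 1) :=
    Strat.RN_toFinset hF j i a b hVa
  have hg : GoodT L h T := by rw [hT]; exact GoodT.iterate hc d h t
  have hsub : T.keys ⊆ rd P mc ω vis hid j i a ((b : ℤ) - P.H - 1) := by
    rw [← hset]
    intro c hc
    unfold KT.keys at hc
    simp only [List.mem_toFinset, List.mem_map] at hc
    obtain ⟨p, hp, rfl⟩ := hc
    rw [List.mem_toFinset]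
    exact hg.sub p hp
  have hout : outOf P ad cvb idx vis j i u v T = cval P vis hid T.keys j i u v := by
    unfold outOf
    have hv' : P.μ * (v / P.μ) = v := Nat.mul_div_cancel' hv.1
    have hu' : P.μ * (u / P.μ) = u := Nat.mul_div_cancel' hu.1
    rw [cvalGF_eq P hμ had hcvb vis hid (okG_of_ans hans hg.ok) j i
      (u / P.μ) (by rw [hv']; exact hv.2), hu', hv']
  refine ⟨hsub, hout, fun ht => ?_⟩
  have hkeys : T.keys = rd P mc ω vis hid j i a ((b : ℤ) - P.H - 1) := by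
    refine hsub.antisymm ?_
    rw [← hset] at ht ⊢
    obtain ⟨h1, h2, -⟩ := loop_done hc d h ht
    rw [← hT] at h1 h2
    intro c hc
    rw [List.mem_toFinset, ← h2] at hc
    unfold nextQ at h1
    have h3 := List.find?_eq_none.1 h1 c hc
    simp only [decide_eq_true_eq, not_not] at h3
    unfold KT.keys
    rw [List.mem_toFinset]
    exact h3
  refine ⟨hkeys, ?_⟩
  rw [hout, hkeys]
  rfl

/-- The queries are cells of the read set. -/
theorem query_mem {V : ℕ → ℕ → Prop}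
    (hF : (strat P mc ω kidsL labs ad cvb idx vis).Faithful (Pos P) V vis hid h)
    (d : Cell → List ℕ) {j i a b : ℕ} (hVa : V j a) (t : ℕ) {c : Cell}
    (hc : nextQ (rlist P mc ω kidsL labs ad cvb idx vis j i a b) d
      ((rnd (rlist P mc ω kidsL labs ad cvb idx vis j i a b) d h)^[t] []) = some c) :
    c ∈ rd P mc ω vis hid j i a ((b : ℤ) - P.H - 1) := by
  have h1 := loop_query (Strat.causal_RN hF.loc j i a b) d h t hc
  have h2 : (rlist P mc ω kidsL labs ad cvb idx vis j i a b h).toFinset =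
      rd P mc ω vis hid j i a ((b : ℤ) - P.H - 1) := Strat.RN_toFinset hF j i a b hVa
  rw [← h2, List.mem_toFinset]
  exact h1

/-- The cells read in a valid region: row and label. -/
theorem rd_valid {V : ℕ → ℕ → Prop}
    (hV : ∀ j a, 0 < j → V j a → ∀ a' ∈ P.kids j a, V (j - 1) a') (hlab : LaneLab P mc) (j : ℕ) :
    ∀ (i a : ℕ) (b : ℤ) (c : Cell), V j a → c ∈ rd P mc ω vis hid j i a b →
      V 0 c.2 ∧ i * P.M ^ j ≤ c.1 ∧ c.1 < (i + 1) * P.M ^ j := by
  induction j using Nat.strong_induction_on with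
  | _ j ih =>
    intro i a b c hVa hc
    cases j with
    | zero =>
      rw [mem_rd0] at hc
      rw [hc.2]
      simpa using hVa
    | succ j =>
      have key : ∀ e m, e ≤ j + 1 → m < P.M ^ e →
          (i * P.M ^ e + m) * P.M ^ (j + 1 - e) ≤ c.1 →
          c.1 < (i * P.M ^ e + m + 1) * P.M ^ (j + 1 - e) →
          i * P.M ^ (j + 1) ≤ c.1 ∧ c.1 < (i + 1) * P.M ^ (j + 1) := by
        intro e m he hm h1 h2
        have h3 : P.M ^ (j + 1) = P.M ^ e * P.M ^ (j + 1 - e) := by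
          rw [← pow_add]; congr 1; omega
        constructor
        · refine le_trans ?_ h1
          rw [h3, ← mul_assoc]
          exact Nat.mul_le_mul_right _ (Nat.le_add_right _ _)
        · refine lt_of_lt_of_le h2 ?_
          rw [h3, ← mul_assoc]
          refine Nat.mul_le_mul_right _ ?_
          rw [add_mul, one_mul]
          omega
      rw [mem_rd] at hc
      rcases hc with ⟨m, hm, a', ha', h3⟩ | ⟨s, hs, hs', q, hq, κ, hκ, m, hm, h3⟩
      · have h4 := ih j (Nat.lt_succ_self j) _ _ _ _ (hV (j + 1) a (by omega) hVa a' ha') h3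
        refine ⟨h4.1, key 1 m (by omega) (by simpa using hm) (by simpa using h4.2.1)
          (by simpa using h4.2.2)⟩
      · have hle := Nat.le_of_dvd (Nat.succ_pos j) hs'
        have hone : 1 ≤ 2 ^ s := Nat.one_le_two_pow
        have h4 := ih (j + 1 - 2 ^ s) (by omega) _ _ _ _ (valid_desc hV _ _ _ _ hle hVa
          (hlab s q κ (j + 1) a _ _ m (by omega) hs hs' hq hm)) h3
        exact ⟨h4.1, key (2 ^ s) m hle hm h4.2.1 h4.2.2⟩

end

/-! ### The additive geometry -/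

/-- Labels of the units seen by the machines: `[a K, (a + 2) K)`, `K = M ^ 2 ^ s`. -/
def labBox (M : ℕ) (_j s a _m : ℕ) : List ℕ := List.range' (a * M ^ 2 ^ s) (2 * M ^ 2 ^ s)

/-- Valid labels of level `j` below a root of level `n` with label `0`. -/
def VBox (M n j a : ℕ) : Prop := j ≤ n ∧ a + 3 ≤ 3 * M ^ (n - j)

/-- A cell covers the starts in it. -/
def cvBox (ℓ a p : ℕ) : Bool := decide (p / ℓ = a)

section
variable {M ℓ μ B J S H n : ℕ}

theorem VBox_root : VBox M n n 0 := by unfold VBox; simp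

theorem VBox_kids (hM : 2 ≤ M) : ∀ j a, 0 < j → VBox M n j a →
    ∀ a' ∈ (boxPar M ℓ μ B J S H).kids j a, VBox M n (j - 1) a' := by
  rintro j a hj ⟨h1, h2⟩ a' ha'
  have ha'' : a' ∈ Finset.Ico (a * M) ((a + 2) * M) := ha'
  rw [Finset.mem_Ico] at ha''
  refine ⟨by omega, ?_⟩
  have h3 : n - (j - 1) = n - j + 1 := by omega
  rw [h3, pow_succ, ← mul_assoc]
  have h4 : (a + 3) * M ≤ 3 * M ^ (n - j) * M := Nat.mul_le_mul_right _ h2
  have h5 : (a + 3) * M = (a + 2) * M + M := by ring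
  omega

theorem range_desc (hM : 0 < M) : ∀ e j a x, a * M ^ e ≤ x → x < (a + 2) * M ^ e → e ≠ 0 →
    x ∈ (boxPar M ℓ μ B J S H).desc j e a := by
  intro e
  induction e with
  | zero => intro j a x _ _ h; exact absurd rfl h
  | succ e ih =>
    intro j a x h1 h2 _
    unfold Par.desc
    rw [Finset.mem_biUnion]
    have hMe : 0 < M ^ e := pow_pos hM e
    refine ⟨x / M ^ e, ?_, ?_⟩
    · show x / M ^ e ∈ Finset.Ico (a * M) ((a + 2) * M)
      rw [Finset.mem_Ico, Nat.le_div_iff_mul_le hMe, Nat.div_lt_iff_lt_mul hMe]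
      rw [pow_succ', ← mul_assoc] at h1 h2
      exact ⟨h1, h2⟩
    · rcases Nat.eq_zero_or_pos e with he | he
      · subst he
        simp [Par.desc]
      · refine ih _ _ _ (Nat.div_mul_le_self x _) ?_ (by omega)
        have h3 := Nat.lt_mul_div_succ x hMe
        have h4 : (x / M ^ e + 2) * M ^ e = M ^ e * (x / M ^ e + 1) + M ^ e := by ring
        omega

theorem labBox_desc (hM : 0 < M) (j s a m : ℕ) : ∀ x ∈ labBox M j s a m,
    x ∈ (boxPar M ℓ μ B J S H).desc j (2 ^ s) a := by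
  intro x hx
  unfold labBox at hx
  rw [List.mem_range'_1] at hx
  refine range_desc hM _ _ _ _ hx.1 ?_ (by positivity)
  rw [add_mul]
  exact hx.2

theorem adB_iff' (p q : ℕ) : adB ℓ p q = true ↔ (boxPar M ℓ μ B J S H).adm p q :=
  adB_iff M ℓ μ B J S H p q

theorem cvBox_iff (a p : ℕ) : cvBox ℓ a p = true ↔ (boxPar M ℓ μ B J S H).cov a p := by
  unfold cvBox
  rw [decide_eq_true_eq]
  rfl

/-- Place of a mesh step in the answer of its cell. -/
def idxBox (ℓ μ _a p q : ℕ) : ℕ := cellIdx ℓ μ p q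

/-- The true answers. -/
def ansBox (ℓ μ : ℕ) (hid : Leaf) (c : Cell) : List ℕ := cellAns ℓ μ hid c.1 c.2

theorem ansBox_ok (hμ : 0 < μ) (hℓ : 0 < ℓ) (hd : μ ∣ ℓ) (hid : Leaf) :
    AnsOK (boxPar M ℓ μ B J S H) (idxBox ℓ μ) hid (ansBox ℓ μ hid) := by
  intro i a p q hp hq _ _ had hcov
  have hcov' : p / ℓ = a := hcov
  subst hcov'
  exact cellAns_getD hμ hℓ hd hid i hp hq had.1 had.2

variable {mc : Mach} {ω : Rnd} {vis hid : Leaf}

/-- The strategy of the additive geometry. -/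
def boxStrat (M ℓ μ B J S H : ℕ) (mc : Mach) (ω : Rnd) (vis : Leaf) : Strat (List ℕ) :=
  strat (boxPar M ℓ μ B J S H) mc ω (klBox M) (labBox M) (adB ℓ) (cvBox ℓ) (idxBox ℓ μ) vis

theorem box_faithful (hM : 2 ≤ M) (hμ : 0 < μ) (hℓ : 0 < ℓ) (hd : μ ∣ ℓ)
    (hlane : LaneLoc (boxPar M ℓ μ B J S H) mc (labBox M))
    (hlab : LaneLab (boxPar M ℓ μ B J S H) mc) :
    (boxStrat M ℓ μ B J S H mc ω vis).Faithful (Pos (boxPar M ℓ μ B J S H)) (VBox M n)
      vis hid (ansBox ℓ μ hid) :=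
  faithful (by show 0 < M; omega) hμ adB_iff' cvBox_iff (ansBox_ok hμ hℓ hd hid)
    (klBox_eq M ℓ μ B J S H) (fun j s a m _ _ _ _ => labBox_desc (by omega) j s a m)
    (VBox_kids hM) (penOK_box M ℓ μ B J S H) (fun _ _ => rfl) hlane hlab

/-- Read list of the root (level `n`, natural index `b = N + H + 1`). -/
def boxList (M ℓ μ B J S H : ℕ) (mc : Mach) (ω : Rnd) (vis : Leaf) (n b : ℕ)
    (h : Cell → List ℕ) : List Cell :=
  (boxStrat M ℓ μ B J S H mc ω vis).RN h n 0 0 b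

/-- Output from the known cells: cost of the root from `u` to `v`. -/
def boxOut (M ℓ μ B : ℕ) (vis : Leaf) (n u v : ℕ) (T : KT) : ℕ :=
  (cvalGF (B / μ + 1) μ 2 (adB ℓ) (cvBox ℓ) (idxBox ℓ μ) vis T (M ^ n) 0 (u / μ)).getD (v / μ) 0

/-- **The query loop of the additive geometry.** -/
theorem box_loop (hM : 2 ≤ M) (hμ : 0 < μ) (hℓ : 0 < ℓ) (hd : μ ∣ ℓ)
    (hlane : LaneLoc (boxPar M ℓ μ B J S H) mc (labBox M))
    (hlab : LaneLab (boxPar M ℓ μ B J S H) mc) (d : Cell → List ℕ) {b u v : ℕ}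
    (hu : μ ∣ u) (huB : u ≤ B) (hv : μ ∣ v) (hvB : v ≤ B) (t : ℕ) (T : KT)
    (hT : T = (rnd (boxList M ℓ μ B J S H mc ω vis n b) d (ansBox ℓ μ hid))^[t] []) :
    T.keys ⊆ rd (boxPar M ℓ μ B J S H) mc ω vis hid n 0 0 ((b : ℤ) - H - 1) ∧
    boxOut M ℓ μ B vis n u v T = cval (boxPar M ℓ μ B J S H) vis hid T.keys n 0 u v ∧
    ((rd (boxPar M ℓ μ B J S H) mc ω vis hid n 0 0 ((b : ℤ) - H - 1)).card ≤ t →
      T.keys = rd (boxPar M ℓ μ B J S H) mc ω vis hid n 0 0 ((b : ℤ) - H - 1) ∧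
      boxOut M ℓ μ B vis n u v T =
        cR (boxPar M ℓ μ B J S H) mc ω vis hid n 0 0 ((b : ℤ) - H - 1) u v) :=
  loop_spec (P := boxPar M ℓ μ B J S H) (V := VBox M n) hμ adB_iff' cvBox_iff
    (ansBox_ok hμ hℓ hd hid) (box_faithful hM hμ hℓ hd hlane hlab) d VBox_root
    ⟨hu, huB⟩ ⟨hv, hvB⟩ t T hT

/-- Every query is a cell of the root: row `< M ^ n`, label `< 3 M ^ n`. -/
theorem box_query (hM : 2 ≤ M) (hμ : 0 < μ) (hℓ : 0 < ℓ) (hd : μ ∣ ℓ)
    (hlane : LaneLoc (boxPar M ℓ μ B J S H) mc (labBox M))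
    (hlab : LaneLab (boxPar M ℓ μ B J S H) mc) (d : Cell → List ℕ) {b : ℕ} (t : ℕ) {c : Cell}
    (hc : nextQ (boxList M ℓ μ B J S H mc ω vis n b) d
      ((rnd (boxList M ℓ μ B J S H mc ω vis n b) d (ansBox ℓ μ hid))^[t] []) = some c) :
    c ∈ rd (boxPar M ℓ μ B J S H) mc ω vis hid n 0 0 ((b : ℤ) - H - 1) ∧
      c.1 < M ^ n ∧ c.2 + 3 ≤ 3 * M ^ n := by
  have h1 := query_mem (P := boxPar M ℓ μ B J S H) (box_faithful hM hμ hℓ hd hlane hlab) d
    VBox_root t hc
  have h2 := rd_valid (P := boxPar M ℓ μ B J S H) (V := VBox M n) (VBox_kids hM) hlab n 0 0 _ c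
    VBox_root h1
  refine ⟨h1, ?_, ?_⟩
  · have := h2.2.2
    simpa [boxPar] using this
  · have := h2.1.2
    simpa using this

end

end Vale.Agent.P315.H804
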