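import Vale.Agent.P315.H804.Inst
import Vale.Agent.P315.H801.Mach

/-!
P315 (helper804), row G-STRAT: the machines of `H801/Mach.lean` are local, so that the query loop
of the additive geometry (`H804/Inst.lean`) applies to them without hypotheses on the machines.
-/

set_option autoImplicit false

namespace Vale.Agent.P315.H804

open Vale.Agent.P315.C Vale.Agent.P315.Q Vale.Agent.P315.H207

/-- The machines use only the listed labels and mesh positions. -/
theorem mach_laneLoc (X : H801.MP) (M ℓ μ B J S H : ℕ) :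
    LaneLoc (boxPar M ℓ μ B J S H) (H801.mach X M ℓ μ B) (labBox M) := by
  intro s q κ j a D D' coin _ _ _ h m _
  show H801.laneN _ _ _ _ _ _ _ _ _ _ _ _ _ _ _ _ _ _ = H801.laneN _ _ _ _ _ _ _ _ _ _ _ _ _ _ _ _ _ _
  unfold H801.laneN
  rw [H801.stored_congr (D := D) (D' := D')]
  intro κ' hκ' m' hm' x hx1 hx2 u v hu huB hv hvB
  refine h κ' hκ' m' hm' x ?_ u v ⟨hu, huB⟩ ⟨hv, hvB⟩
  unfold labBox
  rw [List.mem_range'_1]
  rw [add_mul] at hx2
  exact ⟨hx1, hx2⟩

theorem mach_laneLab (X : H801.MP) (M ℓ μ B J S H : ℕ) :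
    LaneLab (boxPar M ℓ μ B J S H) (H801.mach X M ℓ μ B) := by
  intro s q κ j a D coin m hj _ hd _ hm
  exact (H801.machOK X M ℓ μ B J S H).label s q κ j a D coin m hj hd hm

section
variable {X : H801.MP} {M ℓ μ B J S H n : ℕ} {ω : Rnd} {vis hid : Leaf}

/-- The instance with the concrete machines is faithful. -/
theorem mach_faithful (hM : 2 ≤ M) (hμ : 0 < μ) (hℓ : 0 < ℓ) (hd : μ ∣ ℓ) :
    (boxStrat M ℓ μ B J S H (H801.mach X M ℓ μ B) ω vis).Faithful
      (Pos (boxPar M ℓ μ B J S H)) (VBox M n) vis hid (ansBox ℓ μ hid) :=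
  box_faithful hM hμ hℓ hd (mach_laneLoc X M ℓ μ B J S H) (mach_laneLab X M ℓ μ B J S H)

end

end Vale.Agent.P315.H804
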