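import Vale.Agent.P315.H804.Out
import Vale.Agent.P315.H817.AdCell
import Vale.Agent.P315.H248.Win

/-!
P315 (helper804): the answer of the cell program is the answer of the strategy (additive geometry,
hidden costs of two strings).
-/

set_option autoImplicit false

namespace Vale.Agent.P315.H804

open Vale.Agent.P315.C Vale.Agent.P315.Q Vale.Agent.P315.H207

/-- The cell program computes the answer of the cell. -/
theorem adAns_eq (X Y : ℕ → ℕ) {ℓ μ mc D i a : ℕ} (hμ : 0 < μ) (hl : mc * μ = ℓ) (ha : a < D) :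
    H817.adAns X Y ℓ μ mc D (i * D + a) = ansBox ℓ μ (H248.hidW X Y ℓ) (i, a) := by
  have hq : (i * D + a) / D = i := by
    rw [mul_comm, Nat.mul_add_div (by omega), Nat.div_eq_of_lt ha, add_zero]
  have hr : (i * D + a) % D = a := by
    rw [mul_comm, Nat.mul_add_mod, Nat.mod_eq_of_lt ha]
  have hdiv : ℓ / μ = mc := by rw [← hl]; exact Nat.mul_div_cancel _ hμ
  unfold ansBox
  have hlen : (cellAns ℓ μ (H248.hidW X Y ℓ) i a).length = mc * (mc + 1) := by
    rw [cellAns_length, hdiv]
  apply List.ext_getElem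
  · rw [H817.length_adAns]
    exact hlen.symm
  · intro k h1 h2
    rw [H817.length_adAns] at h1
    rw [← List.getD_eq_getElem _ 0 h2, ← List.getD_eq_getElem _ 0 (by
      rw [H817.length_adAns]; exact h1), H817.adAns_getD X Y ℓ μ mc D _ h1]
    unfold H817.adVal cellAns H248.hidW
    rw [hq, hr, hdiv]
    have hk : k = k / (mc + 1) * (mc + 1) + k % (mc + 1) := (Nat.div_add_mod' k (mc + 1)).symm
    have hk1 : k / (mc + 1) < mc := by
      rw [Nat.div_lt_iff_lt_mul (Nat.succ_pos _)]; exact h1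
    have hk2 : k % (mc + 1) < mc + 1 := Nat.mod_lt _ (Nat.succ_pos _)
    have hflat := flat_getD mc (mc + 1) (fun x c => H54.En X Y (i * ℓ) (a * ℓ + μ * x)
      ((i + 1) * ℓ) (a * ℓ + μ * x + μ * c)) 0 hk1 hk2
    rw [← hk] at hflat
    rw [hflat]
    have e1 : (i + 1) * ℓ = i * ℓ + ℓ := by ring
    rw [e1, mul_comm μ (k / (mc + 1)), mul_comm μ (k % (mc + 1))]
    rfl

end Vale.Agent.P315.H804
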