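import Vale.Agent.P315.Q.M1St
import Vale.Agent.P315.H804.M1Ans

/-!
P315 (helper804), row G-STRAT: the value computed by the strategy `M1.m1Strat` of the additive
theorem.
-/

set_option autoImplicit false

namespace Vale.Agent.P315.H804

open Vale.Agent.Lib.PolyTime Vale.Agent.P315.C Vale.Agent.P315.Q Vale.Agent.P315.Q.M1
  Vale.Agent.P315.H207 Vale.Agent.P315.RAM

section

variable {m k cd : ℕ} {F : List ℕ} {n S μ ℓ : ℕ}

/-- Number of rows. -/
abbrev kk (m n : ℕ) : ℕ := (2 ^ (20 * m)) ^ n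

theorem famCut_le (m k cd n S : ℕ) :
    famCut cd n ≤ (2 ^ k - 1) * n / 2 + famH m n S + 1 := by
  have h1 : famCut cd n ≤ n := by
    unfold famCut
    rcases Nat.eq_zero_or_pos cd with h | h
    · subst h; simp
    rcases Nat.eq_zero_or_pos n with h' | h'
    · subst h'
      rw [zero_add, Nat.div_eq_of_lt (by omega)]
    · obtain ⟨c, rfl⟩ : ∃ c, cd = c + 1 := ⟨cd - 1, by omega⟩
      obtain ⟨e, rfl⟩ : ∃ e, n = e + 1 := ⟨n - 1, by omega⟩
      rw [Nat.div_le_iff_le_mul_add_pred (Nat.succ_pos _)]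
      have : 0 ≤ c * e := Nat.zero_le _
      have e1 : (c + 1) * (e + 1) = c * e + c + e + 1 := by ring
      rw [e1]
      omega
  have h2 : n ≤ famH m n S := n_le_H m n S
  omega

/-- The index of the root. -/
theorem famN_eq (hF : M1.Fit m k F n S μ ℓ) :
    ((famStrat m k cd).Nr F : ℤ) - (famH m n S : ℕ) - 1 = famN k cd n := by
  show ((fN m (2 ^ k - 1) cd F : ℕ) : ℤ) - (famH m n S : ℕ) - 1 = _
  unfold fN famN
  rw [fH_eq hF, fn_eq hF]
  have h1 := famCut_le m k cd n S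
  have h2 : (n + cd - 1) / cd = famCut cd n := rfl
  rw [h2]
  omega

/-- The loop of the strategy. -/
theorem m1_loop (hF : M1.Fit m k F n S μ ℓ) {hid : Leaf} {ans : ℕ → List ℕ}
    (hans : ∀ i < kk m n, ∀ a < 3 * kk m n, ans (i * (4 * kk m n) + a) = ansBox ℓ μ hid (i, a)) :
    LoopRes (famStrat m k cd) F
      (rd (fam m k cd n S ℓ μ (kk m n * ℓ)).P (fam m k cd n S ℓ μ (kk m n * ℓ)).mc
        (rndF m k n S F) (fun _ _ _ => ℓ) hid n 0 0 (fam m k cd n S ℓ μ (kk m n * ℓ)).N)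
      (ansBox ℓ μ hid) ans := by
  have hK : (famStrat m k cd).M F ^ (famStrat m k cd).n F = kk m n := by
    show (2 ^ (20 * m)) ^ fn F = _
    rw [fn_eq hF]
  have hLab : (famStrat m k cd).Lab F = 3 * kk m n := by
    show 3 * fK (2 ^ (20 * m)) F = _
    rw [fK_eq hF]
  have hDc : (famStrat m k cd).Dc F = 4 * kk m n := by
    show 4 * fK (2 ^ (20 * m)) F = _
    rw [fK_eq hF]
  have hn : (famStrat m k cd).n F = n := fn_eq hF
  have ha0 : (famStrat m k cd).a0 F = 0 := rfl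
  have key := loopRes (St := famStrat m k cd) (F := F) (S := SF m k n S μ ℓ F)
    (V := VBox (2 ^ (20 * m)) n)
    (pos := Pos (boxPar (2 ^ (20 * m)) ℓ μ (kk m n * ℓ) (2 ^ k - 1) (S + 1) (famH m n S)))
    (vis := fun _ _ _ => ℓ) (hid := hid) (h := ansBox ℓ μ hid) (ans := ans)
    (link hF)
    (mach_faithful (two_le_M hF) hF.μ0 hF.ℓ0 hF.dvd)
    (by rw [hn, ha0]; exact VBox_root)
    (fun T j hj => H295.esize_tabsU_le' (famStrat m k cd) F T
      (hj.trans (by rw [hn]; exact n_le hF)))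
    (by rw [hLab, hDc]; omega)
    (by rw [hK, hLab, hDc]; exact hans)
  have hR : rootR (famStrat m k cd) F (SF m k n S μ ℓ F) (fun _ _ _ => ℓ) hid =
      rd (fam m k cd n S ℓ μ (kk m n * ℓ)).P (fam m k cd n S ℓ μ (kk m n * ℓ)).mc
        (rndF m k n S F) (fun _ _ _ => ℓ) hid n 0 0 (fam m k cd n S ℓ μ (kk m n * ℓ)).N := by
    unfold rootR
    rw [hn, ha0]
    have h1 : ((famStrat m k cd).Nr F : ℤ) - (SF m k n S μ ℓ F).P.H - 1 =
        (fam m k cd n S ℓ μ (kk m n * ℓ)).N := famN_eq hF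
    rw [h1]
    rfl
  rw [hR] at key
  exact key

/-- The output function. -/
theorem m1out_eq (hF : M1.Fit m k F n S μ ℓ) {hid : Leaf} {T : Kn}
    (hT : ∀ c ∈ T, c.2 = ansBox ℓ μ hid c.1) :
    m1out m (F, T) = cval (fam m k cd n S ℓ μ (kk m n * ℓ)).P (fun _ _ _ => ℓ) hid
      (KT.keys T) n 0 0
      (F.getD 0 0 + (kk m n * ℓ - F.getD 0 0 - F.getD 1 0) / 2) + 1 := by
  have hok : KT.OkG (boxPar (2 ^ (20 * m)) ℓ μ (kk m n * ℓ) (2 ^ k - 1) (S + 1) (famH m n S))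
      (idxBox ℓ μ) hid T := okG_of_ans (ansBox_ok hF.μ0 hF.ℓ0 hF.dvd hid) hT
  have h1 := boxEnd_eq (vis := fun _ _ _ => ℓ) (n := n) (two_le_M hF) hF.μ0 hok
    (F.getD 0 0 + (kk m n * ℓ - F.getD 0 0 - F.getD 1 0) / 2)
  have h2 : cval (fam m k cd n S ℓ μ (kk m n * ℓ)).P (fun _ _ _ => ℓ) hid (KT.keys T) n 0 0
      (F.getD 0 0 + (kk m n * ℓ - F.getD 0 0 - F.getD 1 0) / 2) =
      boxEnd ℓ μ (kk m n * ℓ) (fun _ _ _ => ℓ) (kk m n)
        (F.getD 0 0 + (kk m n * ℓ - F.getD 0 0 - F.getD 1 0) / 2) T := h1.symm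
  rw [h2]
  have hK := fK_eq hF
  have hB := fB_eq hF
  have hu : kk m n ≤ F.length := by
    have := K_le hF
    show (2 ^ (20 * m)) ^ n ≤ _
    omega
  unfold m1out boxEnd m1end fcv
  simp only
  rw [hB, hK, fμ_eq hF, fℓ_eq hF, min_eq_left (mesh_le hF), min_eq_left hu]
  rfl

/-- **The value of the strategy**, for right answers of right length. -/
theorem m1_fin (hF : M1.Fit m k F n S μ ℓ) {hid : Leaf} {ans : ℕ → List ℕ}
    (hans : ∀ i < kk m n, ∀ a < 3 * kk m n, ans (i * (4 * kk m n) + a) = ansBox ℓ μ hid (i, a))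
    (hlen : ∀ q, (ans q).length = ℓ / μ * (ℓ / μ + 1)) (Q : ℕ) :
    ∃ R : Finset (ℕ × ℕ),
      (m1Strat m k cd).fin ans Q F = cval (fam m k cd n S ℓ μ (kk m n * ℓ)).P (fun _ _ _ => ℓ) hid
        R n 0 0 (F.getD 0 0 + (kk m n * ℓ - F.getD 0 0 - F.getD 1 0) / 2) + 1 ∧
      R ⊆ rd (fam m k cd n S ℓ μ (kk m n * ℓ)).P (fam m k cd n S ℓ μ (kk m n * ℓ)).mc
        (rndF m k n S F) (fun _ _ _ => ℓ) hid n 0 0 (fam m k cd n S ℓ μ (kk m n * ℓ)).N ∧
      ((rd (fam m k cd n S ℓ μ (kk m n * ℓ)).P (fam m k cd n S ℓ μ (kk m n * ℓ)).mc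
        (rndF m k n S F) (fun _ _ _ => ℓ) hid n 0 0
        (fam m k cd n S ℓ μ (kk m n * ℓ)).N).card ≤ Q →
        R = rd (fam m k cd n S ℓ μ (kk m n * ℓ)).P (fam m k cd n S ℓ μ (kk m n * ℓ)).mc
          (rndF m k n S F) (fun _ _ _ => ℓ) hid n 0 0 (fam m k cd n S ℓ μ (kk m n * ℓ)).N) := by
  have hloop := m1_loop (cd := cd) hF hans
  refine ⟨KT.keys (knownT (famStrat m k cd) F ans Q), ?_, hloop.sub Q, hloop.full Q⟩
  rw [← m1out_eq hF (hloop.ans_eq Q)]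
  have h0 : 0 < ℓ / μ := Nat.div_pos (Nat.le_of_dvd hF.ℓ0 hF.dvd) hF.μ0
  have hl : ∀ q, m1len (F, q) = ℓ / μ * (ℓ / μ + 1) := by
    intro q
    unfold m1len
    simp only
    rw [fℓ_eq hF, fμ_eq hF]
  show outS (m1out m) ((oround askS (updS m1len (m1D m) (m1next m k cd)) ans)^[Q]
    (startS (m1next m k cd) F)) = _
  rw [outS_iterate (m1out m) (fun q => by rw [hl]; positivity) Q
    (fun t' _ => by rw [hl, hlen])]
  rfl

/-- **The value of the strategy on two strings**, answers of the cell program. -/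
theorem m1_fin_strings (hF : M1.Fit m k F n S μ ℓ) {x y : List ℕ} (hx : F.getD 0 0 = x.length)
    (hy : F.getD 1 0 = y.length) {mc : ℕ} (hmc : ℓ = mc * μ) (Q : ℕ) :
    ∃ R : Finset (ℕ × ℕ),
      (m1Strat m k cd).fin (H817.adAns (fun i => x.getD i 0) (fun i => y.getD i 0) ℓ μ mc
          (4 * kk m n)) Q F =
        cval (fam m k cd n S ℓ μ (kk m n * ℓ)).P (H248.visW ℓ) (H248.hidW (fun i => x.getD i 0) (fun i => y.getD i 0) ℓ)
          R n 0 0 (H248.vend x y (kk m n * ℓ)) + 1 ∧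
      ((rd (fam m k cd n S ℓ μ (kk m n * ℓ)).P (fam m k cd n S ℓ μ (kk m n * ℓ)).mc
        (rndF m k n S F) (H248.visW ℓ) (H248.hidW (fun i => x.getD i 0) (fun i => y.getD i 0) ℓ) n 0 0
        (fam m k cd n S ℓ μ (kk m n * ℓ)).N).card ≤ Q →
        R = rd (fam m k cd n S ℓ μ (kk m n * ℓ)).P (fam m k cd n S ℓ μ (kk m n * ℓ)).mc
          (rndF m k n S F) (H248.visW ℓ) (H248.hidW (fun i => x.getD i 0) (fun i => y.getD i 0) ℓ) n 0 0
          (fam m k cd n S ℓ μ (kk m n * ℓ)).N) := by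
  obtain ⟨R, h1, -, h3⟩ := m1_fin (cd := cd) hF (hid := H248.hidW (fun i => x.getD i 0) (fun i => y.getD i 0) ℓ)
    (ans := H817.adAns (fun i => x.getD i 0) (fun i => y.getD i 0) ℓ μ mc (4 * kk m n))
    (fun i _ a ha => adAns_eq _ _ hF.μ0 hmc.symm (by omega))
    (fun q => by
      rw [H817.length_adAns, hmc, Nat.mul_div_cancel _ hF.μ0]) Q
  refine ⟨R, ?_, h3⟩
  rw [h1, hx, hy]
  rfl

/-- The feed `[lx, ly, n, S, μ, ℓ] ++ seeds` is long enough. -/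
theorem fit_pre {lx ly : ℕ} {cs : List ℕ} (hm : 0 < m) (hμ : 0 < μ) (hℓ : 0 < ℓ) (hd : μ ∣ ℓ)
    (hlong : padM m k n S (ℓ / μ) ≤ cs.length) :
    M1.Fit m k ([lx, ly, n, S, μ, ℓ] ++ cs) n S μ ℓ where
  hn := rfl
  hS := rfl
  hμ := rfl
  hℓ := rfl
  m0 := hm
  μ0 := hμ
  ℓ0 := hℓ
  dvd := hd
  long := by rw [List.length_append]; exact hlong.trans (Nat.le_add_left _ _)

/-- The random data in the feed. -/
theorem rndF_pre (lx ly : ℕ) (cs : List ℕ) :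
    rndF m k n S ([lx, ly, n, S, μ, ℓ] ++ cs) =
      H659.rndOf n (2 ^ (20 * m)) (S + 1) (2 ^ (4 * m * 2 ^ S)) (2 ^ k - 1)
        (fun i => cs.getD i 0) := by
  have h : sd ([lx, ly, n, S, μ, ℓ] ++ cs) = fun i => cs.getD i 0 := by
    funext r
    unfold sd
    rw [Nat.add_comm 6 r]
    rfl
  unfold rndF
  rw [h]

/-- **The value of the strategy on two strings**, feed `[lx, ly, n, S, μ, ℓ] ++ seeds`. -/
theorem m1_fin_pre {x y cs : List ℕ} {mc : ℕ} (hm : 0 < m) (hμ : 0 < μ) (hmc0 : 0 < mc)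
    (hmc : ℓ = mc * μ) (hlong : padM m k n S mc ≤ cs.length) (Q : ℕ) {G : QPar}
    (hG : G = fam m k cd n S ℓ μ ((2 ^ (20 * m)) ^ n * ℓ)) :
    ∃ R : Finset (ℕ × ℕ),
      (m1Strat m k cd).fin (H817.adAns (fun i => x.getD i 0) (fun i => y.getD i 0) ℓ μ mc
          (4 * (2 ^ (20 * m)) ^ n)) Q ([x.length, y.length, n, S, μ, ℓ] ++ cs) =
        cval G.P (H248.visW ℓ) (H248.hidW (fun i => x.getD i 0) (fun i => y.getD i 0) ℓ)
          R n 0 0 (H248.vend x y ((2 ^ (20 * m)) ^ n * ℓ)) + 1 ∧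
      ((rd G.P G.mc (H659.rndOf n (2 ^ (20 * m)) (S + 1) G.Cn (2 ^ k - 1) (fun i => cs.getD i 0))
        (H248.visW ℓ) (H248.hidW (fun i => x.getD i 0) (fun i => y.getD i 0) ℓ) n 0 0
        G.N).card ≤ Q →
        R = rd G.P G.mc
          (H659.rndOf n (2 ^ (20 * m)) (S + 1) G.Cn (2 ^ k - 1) (fun i => cs.getD i 0))
          (H248.visW ℓ) (H248.hidW (fun i => x.getD i 0) (fun i => y.getD i 0) ℓ) n 0 0 G.N) := by
  subst hG
  have hdiv : ℓ / μ = mc := by rw [hmc, Nat.mul_div_cancel _ hμ]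
  have hF : M1.Fit m k ([x.length, y.length, n, S, μ, ℓ] ++ cs) n S μ ℓ :=
    fit_pre hm hμ (by rw [hmc]; positivity) (by rw [hmc]; exact dvd_mul_left _ _)
      (by rw [hdiv]; exact hlong)
  have h := m1_fin_strings (cd := cd) hF (x := x) (y := y) rfl rfl hmc Q
  rw [rndF_pre] at h
  exact h

end

end Vale.Agent.P315.H804
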