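import Vale.Agent.P315.H804.Inst
import Vale.Agent.P315.H140.Best
import Vale.Agent.P315.H155.Auto

/-!
P315 (helper804), row G-STRAT (S3): the certified cost to an end which is not a mesh position, from
the costs to the mesh positions; as a function on lists, with its polynomial time bound.
-/

set_option autoImplicit false

namespace Vale.Agent.P315.H804

open Vale.Agent.Lib.PolyTime Vale.Agent.P315.C Vale.Agent.P315.Q Vale.Agent.P315.H207

/-- Cost to the end `v`, from the costs `F` to the positions `μ * x`, `x < n`. -/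
def endMin (n μ sh : ℕ) (F : List ℕ) (v : ℕ) : ℕ :=
  lmin ((List.range n).map fun x => F.getD x 0 + sh * nd (μ * x) v)

theorem endMin_eq {P : Par} (hμ : 0 < P.μ) (hE : ∃ p q, H140.Ed P p q) {f : Leaf}
    {i0 m u : ℕ} (hm : 0 < m) {F : List ℕ}
    (hF : ∀ x, P.μ * x ≤ P.B → F.getD x 0 = best P f i0 m u (P.μ * x)) (v : ℕ) :
    endMin (P.B / P.μ + 1) P.μ P.sh F v = best P f i0 m u v := by
  obtain ⟨m, rfl⟩ : ∃ m', m = m' + 1 := ⟨m - 1, by omega⟩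
  have hle : ∀ x, x < P.B / P.μ + 1 → P.μ * x ≤ P.B := by
    intro x hx
    rwa [Nat.lt_succ_iff, Nat.le_div_iff_mul_le hμ, mul_comm] at hx
  unfold endMin
  apply le_antisymm
  · obtain ⟨p, q, hpq, he⟩ := H140.best_exists_last (f := f) hE i0 m u v
    have hq : P.μ * (q / P.μ) = q := Nat.mul_div_cancel' hpq.2.1
    have hx : q / P.μ < P.B / P.μ + 1 := Nat.lt_succ_of_le (Nat.div_le_div_right hpq.2.2.2.1)
    refine (lmin_le (List.mem_map.2 ⟨q / P.μ, List.mem_range.2 hx, rfl⟩)).trans ?_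
    rw [hF _ (hle _ hx), hq, he]
    have h1 := H140.best_succ_le (f := f) i0 m u q hpq
    rw [Nat.dist_self, mul_zero, add_zero] at h1
    have h2 : P.sh * nd q v = P.sh * Nat.dist q v := rfl
    omega
  · have hne : ((List.range (P.B / P.μ + 1)).map fun x =>
        F.getD x 0 + P.sh * nd (P.μ * x) v) ≠ [] := by simp
    obtain ⟨x, hx, he⟩ := List.mem_map.1 (lmin_mem hne)
    rw [← he, hF x (hle x (List.mem_range.1 hx))]
    exact H140.best_lip_right (f := f) hE i0 (m + 1) u (P.μ * x) v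

/-- The value of the region from the known cells, arbitrary end `v`. -/
def outEnd (P : Par) (ad cvb : ℕ → ℕ → Bool) (idx : ℕ → ℕ → ℕ → ℕ) (vis : Leaf) (j i u v : ℕ)
    (T : KT) : ℕ :=
  endMin (P.B / P.μ + 1) P.μ P.sh
    (cvalGF (P.B / P.μ + 1) P.μ P.sh ad cvb idx vis T (P.M ^ j) i (u / P.μ)) v

theorem outEnd_eq {P : Par} {ad cvb : ℕ → ℕ → Bool} {idx : ℕ → ℕ → ℕ → ℕ} {vis hid : Leaf}
    (hM : 0 < P.M) (hμ : 0 < P.μ) (had : ∀ p q, ad p q = true ↔ P.adm p q)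
    (hcvb : ∀ a p, cvb a p = true ↔ P.cov a p) (hE : ∃ p q, H140.Ed P p q) {T : KT}
    (hT : T.OkG P idx hid) {j i u : ℕ} (hu : Pos P u) (v : ℕ) :
    outEnd P ad cvb idx vis j i u v T = cval P vis hid T.keys j i u v := by
  unfold outEnd cval
  refine endMin_eq hμ hE (pow_pos hM j) ?_ v
  intro x hx
  have hu' : P.μ * (u / P.μ) = u := Nat.mul_div_cancel' hu.1
  rw [cvalGF_eq P hμ had hcvb vis hid hT j i (u / P.μ) hx, hu']
  rfl

/-! ### The additive geometry -/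

/-- Output of the strategy: cost of the root from `0` to `v`, from the known cells; `MN` = number
of rows. -/
def boxEnd (ℓ μ B : ℕ) (vis : ℕ → ℕ → ℕ → ℕ) (MN v : ℕ) (T : KT) : ℕ :=
  endMin (B / μ + 1) μ 2
    (cvalGF (B / μ + 1) μ 2 (adB ℓ) (cvBox ℓ) (idxBox ℓ μ) vis T MN 0 0) v

section
variable {M ℓ μ B J S H n : ℕ} {mc : Mach} {ω : Rnd} {vis hid : Leaf}

theorem boxEnd_eq (hM : 2 ≤ M) (hμ : 0 < μ) {T : KT}
    (hT : T.OkG (boxPar M ℓ μ B J S H) (idxBox ℓ μ) hid) (v : ℕ) :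
    boxEnd ℓ μ B vis (M ^ n) v T = cval (boxPar M ℓ μ B J S H) vis hid T.keys n 0 0 v := by
  have h1 := outEnd_eq (P := boxPar M ℓ μ B J S H) (ad := adB ℓ) (cvb := cvBox ℓ)
    (idx := idxBox ℓ μ) (vis := vis) (hid := hid) (by show 0 < M; omega) hμ adB_iff' cvBox_iff
    H140.box_edges hT (j := n) (i := 0) (u := 0) ⟨dvd_zero _, Nat.zero_le _⟩ v
  rw [← h1]
  show _ = endMin (B / μ + 1) μ 2
    (cvalGF (B / μ + 1) μ 2 (adB ℓ) (cvBox ℓ) (idxBox ℓ μ) vis T (M ^ n) 0 (0 / μ)) v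
  rw [Nat.zero_div]
  rfl

/-- The answers stored by the loop are correct. -/
theorem okG_loop (hμ : 0 < μ) (hℓ : 0 < ℓ) (hd : μ ∣ ℓ)
    (hlane : LaneLoc (boxPar M ℓ μ B J S H) mc (labBox M)) (d : Cell → List ℕ) {b : ℕ} (t : ℕ)
    (T : KT) (hT : T = (rnd (boxList M ℓ μ B J S H mc ω vis n b) d (ansBox ℓ μ hid))^[t] []) :
    T.OkG (boxPar M ℓ μ B J S H) (idxBox ℓ μ) hid := by
  have hc : Causal (boxList M ℓ μ B J S H mc ω vis n b) := Strat.causal_RN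
    (strat_loc (P := boxPar M ℓ μ B J S H) (ω := ω) (kidsL := klBox M) (ad := adB ℓ)
      (cvb := cvBox ℓ) (idx := idxBox ℓ μ) (vis := vis) hlane) n 0 0 b
  have hg : GoodT (boxList M ℓ μ B J S H mc ω vis n b) (ansBox ℓ μ hid) T := by
    rw [hT]; exact GoodT.iterate hc d _ t
  exact okG_of_ans (ansBox_ok hμ hℓ hd hid) hg.ok

/-- **The query loop of the additive geometry, output at an arbitrary end `v`.** -/
theorem box_loop_end (hM : 2 ≤ M) (hμ : 0 < μ) (hℓ : 0 < ℓ) (hd : μ ∣ ℓ)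
    (hlane : LaneLoc (boxPar M ℓ μ B J S H) mc (labBox M))
    (hlab : LaneLab (boxPar M ℓ μ B J S H) mc) (d : Cell → List ℕ) {b : ℕ} (v t : ℕ) (T : KT)
    (hT : T = (rnd (boxList M ℓ μ B J S H mc ω vis n b) d (ansBox ℓ μ hid))^[t] []) :
    T.keys ⊆ rd (boxPar M ℓ μ B J S H) mc ω vis hid n 0 0 ((b : ℤ) - H - 1) ∧
    boxEnd ℓ μ B vis (M ^ n) v T = cval (boxPar M ℓ μ B J S H) vis hid T.keys n 0 0 v ∧
    ((rd (boxPar M ℓ μ B J S H) mc ω vis hid n 0 0 ((b : ℤ) - H - 1)).card ≤ t →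
      T.keys = rd (boxPar M ℓ μ B J S H) mc ω vis hid n 0 0 ((b : ℤ) - H - 1) ∧
      boxEnd ℓ μ B vis (M ^ n) v T =
        cR (boxPar M ℓ μ B J S H) mc ω vis hid n 0 0 ((b : ℤ) - H - 1) 0 v) := by
  have h1 := box_loop (ω := ω) (vis := vis) (hid := hid) (n := n) hM hμ hℓ hd hlane hlab d
    (b := b) (u := 0) (v := 0) (dvd_zero _) (Nat.zero_le _) (dvd_zero _) (Nat.zero_le _) t T hT
  have h2 := boxEnd_eq (n := n) (vis := vis) hM hμ (okG_loop hμ hℓ hd hlane d t T hT) v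
  refine ⟨h1.1, h2, fun ht => ?_⟩
  have h3 := (h1.2.2 ht).1
  refine ⟨h3, ?_⟩
  rw [h2, h3]
  rfl

end

/-! ### Polynomial time -/

section
variable {A : Set Word} {α : Type*} [Enc α]

theorem pt_endMin {n μ sh v : α → ℕ} {F : α → List ℕ} (hn : PT A n) (hnb : PBd n) (hμ : PT A μ)
    (hsh : PT A sh) (hF : PT A F) (hv : PT A v) :
    PT A (fun a => endMin (n a) (μ a) (sh a) (F a) (v a)) := by
  refine pt_lmin ?_
  refine PT.map (f := fun a x => (F a).getD x 0 + sh a * nd (μ a * x) (v a)) (PT.range hn hnb) ?_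
  exact ((hF.comp PT.fst').getD PT.snd' (PT.const 0)).add ((hsh.comp PT.fst').mul
    (pt_nd ((hμ.comp PT.fst').mul PT.snd') (hv.comp PT.fst')))

theorem pt_cvBox {ℓ : α → ℕ} (hℓ : PT A ℓ) :
    PT A (fun x : α × ℕ × ℕ => cvBox (ℓ x.1) x.2.1 x.2.2) :=
  PT.eqNat (PT.snd'.snd.div (hℓ.comp PT.fst')) PT.snd'.fst

theorem pt_idxBox {ℓ μ : α → ℕ} (hℓ : PT A ℓ) (hμ : PT A μ) :
    PT A (fun x : α × ℕ × ℕ × ℕ => idxBox (ℓ x.1) (μ x.1) x.2.1 x.2.2.1 x.2.2.2) :=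
  pt_cellIdx (hℓ.comp PT.fst') (hμ.comp PT.fst') PT.snd'.snd.fst PT.snd'.snd.snd

/-- The costs from a mesh position, as in `TStrat.cvF`. -/
theorem pt_cvFBox {ℓ μ n MJ i u : α → ℕ} {vis : α → ℕ → ℕ → ℕ → ℕ} {T : α → KT}
    (hℓ : PT A ℓ) (hμ : PT A μ) (hn : PT A n) (hnb : PBd n)
    (hvis : PT A (fun x : α × ℕ × ℕ × ℕ => vis x.1 x.2.1 x.2.2.1 x.2.2.2)) (hT : PT A T)
    (hMJ : PT A MJ) (hMJb : PBd MJ) (hi : PT A i) (hu : PT A u) :
    PT A (fun a => cvalGF (n a) (μ a) 2 (adB (ℓ a)) (cvBox (ℓ a)) (idxBox (ℓ a) (μ a)) (vis a)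
      (T a) (MJ a) (i a) (u a)) :=
  pt_cvalGF (sh := fun _ => 2) (ad := fun a => adB (ℓ a)) (cv := fun a => cvBox (ℓ a))
    (idx := fun a => idxBox (ℓ a) (μ a)) hn hnb hμ (PT.const 2) (pt_adB hℓ) (pt_cvBox hℓ)
    (pt_idxBox hℓ hμ) hvis hT hMJ hMJb hi hu

theorem pt_boxEnd {ℓ μ B MN v : α → ℕ} {vis : α → ℕ → ℕ → ℕ → ℕ} {T : α → KT}
    (hℓ : PT A ℓ) (hμ : PT A μ) (hB : PT A B) (hBb : PBd (fun a => B a / μ a + 1))
    (hvis : PT A (fun x : α × ℕ × ℕ × ℕ => vis x.1 x.2.1 x.2.2.1 x.2.2.2)) (hT : PT A T)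
    (hMN : PT A MN) (hMNb : PBd MN) (hv : PT A v) :
    PT A (fun a => boxEnd (ℓ a) (μ a) (B a) (vis a) (MN a) (v a) (T a)) := by
  have hn : PT A (fun a => B a / μ a + 1) := (hB.div hμ).add (PT.const 1)
  exact pt_endMin hn hBb hμ (PT.const 2)
    (pt_cvFBox hℓ hμ hn hBb hvis hT hMN hMNb (PT.const 0) (PT.const 0)) hv

end

end Vale.Agent.P315.H804
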